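import Mathlib

set_option autoImplicit false

/-! Infinitely divisible families of ultrafilters on a monoid with an additive time. -/

namespace Crest.Agent.H5.FPP

open Filter Topology

variable {W : Type*} [Monoid W]

/-- ordered product of a list of ultrafilters -/
def prodL : List (ℝ × Ultrafilter W) → Ultrafilter W
  | [] => pure 1
  | e :: L => e.2.bind (fun G => (prodL L).map (fun G' => G * G'))

theorem prodL_nil (p : W → Prop) :
    (∀ᶠ G in (prodL ([] : List (ℝ × Ultrafilter W)) : Filter W), p G) ↔ p 1 := by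
  simp [prodL]

theorem prodL_cons (e : ℝ × Ultrafilter W) (L : List (ℝ × Ultrafilter W)) (p : W → Prop) :
    (∀ᶠ G in (prodL (e :: L) : Filter W), p G) ↔
      ∀ᶠ G in (e.2 : Filter W), ∀ᶠ G' in (prodL L : Filter W), p (G * G') := by
  have : (prodL (e :: L) : Filter W) =
      Filter.bind (e.2 : Filter W) (fun G => Filter.map (fun G' => G * G') (prodL L : Filter W)) :=
    rfl
  rw [this, Filter.eventually_bind]
  simp only [Filter.eventually_map]

theorem prodL_append (L1 L2 : List (ℝ × Ultrafilter W)) (p : W → Prop) :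
    (∀ᶠ G in (prodL (L1 ++ L2) : Filter W), p G) ↔
      ∀ᶠ G in (prodL L1 : Filter W), ∀ᶠ G' in (prodL L2 : Filter W), p (G * G') := by
  induction L1 generalizing p with
  | nil => simp [prodL_nil]
  | cons e L ih =>
    rw [List.cons_append, prodL_cons, prodL_cons]
    simp only [ih, mul_assoc]

/-- ultrafilters of far words of time `a` -/
def MM (time : W → ℝ) (far : ℕ → W → Prop) (a : ℝ) : Set (Ultrafilter W) :=
  {Q | (∀ᶠ G in (Q : Filter W), time G = a) ∧ ∀ N, ∀ᶠ G in (Q : Filter W), far N G}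

theorem isClosed_MM (time : W → ℝ) (far : ℕ → W → Prop) (a : ℝ) : IsClosed (MM time far a) := by
  have : MM time far a = {Q : Ultrafilter W | {G | time G = a} ∈ Q} ∩
      ⋂ N, {Q : Ultrafilter W | {G | far N G} ∈ Q} := by
    ext Q
    simp only [MM, Set.mem_inter_iff, Set.mem_iInter, Set.mem_setOf_eq]
    rfl
  rw [this]
  exact (ultrafilter_isClosed_basic _).inter (isClosed_iInter fun N => ultrafilter_isClosed_basic _)

/-- products of short elements of `S` of total time `a` -/
def PP (S : Set (ℝ × Ultrafilter W)) (a w : ℝ) : Set (Ultrafilter W) :=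
  {Q | ∃ L : List (ℝ × Ultrafilter W), (∀ e ∈ L, e ∈ S ∧ e.1 ≤ w) ∧ (L.map Prod.fst).sum = a ∧
    prodL L = Q}

/-- the divisibility operator -/
def Gam (S : Set (ℝ × Ultrafilter W)) : Set (ℝ × Ultrafilter W) :=
  {e | 0 < e.1 ∧ ∀ w > 0, e.2 ∈ closure (PP S e.1 w)}

theorem PP_mono {S S' : Set (ℝ × Ultrafilter W)} (h : S ⊆ S') {a w w' : ℝ} (hw : w ≤ w') :
    PP S a w ⊆ PP S' a w' := by
  rintro Q ⟨L, h1, h2, h3⟩
  exact ⟨L, fun e he => ⟨h (h1 e he).1, (h1 e he).2.trans hw⟩, h2, h3⟩

theorem Gam_mono {S S' : Set (ℝ × Ultrafilter W)} (h : S ⊆ S') : Gam S ⊆ Gam S' :=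
  fun _ he => ⟨he.1, fun w hw => closure_mono (PP_mono h le_rfl) (he.2 w hw)⟩

theorem prodL_time (time : W → ℝ) (far : ℕ → W → Prop) (h1 : time 1 = 0)
    (hmul : ∀ a b, time (a * b) = time a + time b) (L : List (ℝ × Ultrafilter W))
    (hL : ∀ e ∈ L, e.2 ∈ MM time far e.1) :
    ∀ᶠ G in (prodL L : Filter W), time G = (L.map Prod.fst).sum := by
  induction L with
  | nil => rw [prodL_nil]; simpa using h1
  | cons e L ih =>
    rw [prodL_cons]
    filter_upwards [(hL e List.mem_cons_self).1] with G hG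
    filter_upwards [ih fun e he => hL e (List.mem_cons_of_mem _ he)] with G' hG'
    simp [hmul, hG, hG']

theorem kernel (time : W → ℝ) (far : ℕ → W → Prop) (h1 : time 1 = 0)
    (hmul : ∀ a b, time (a * b) = time a + time b)
    (far_mul : ∀ N G G', far N G → far N (G * G'))
    (far_mono : ∀ N N' G, N ≤ N' → far N' G → far N G)
    (hex : ∀ a > 0, ∀ N, ∃ G, time G = a ∧ far N G) :
    ∃ S : Set (ℝ × Ultrafilter W), (∀ a > 0, ∃ Q, (a, Q) ∈ S) ∧
      (∀ e ∈ S, 0 < e.1 ∧ e.2 ∈ MM time far e.1) ∧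
      ∀ e ∈ S, ∀ w > 0, ∀ A ∈ e.2, ∃ L : List (ℝ × Ultrafilter W),
        (∀ e' ∈ L, e' ∈ S ∧ e'.1 ≤ w) ∧ (L.map Prod.fst).sum = e.1 ∧ A ∈ prodL L := by
  set M0 : Set (ℝ × Ultrafilter W) := {e | 0 < e.1 ∧ e.2 ∈ MM time far e.1} with hM0
  set Z : Set (Set (ℝ × Ultrafilter W)) := {S | (∀ a > 0, ∃ Q, (a, Q) ∈ S) ∧
    (∀ a, IsClosed {Q | (a, Q) ∈ S}) ∧ S ⊆ M0 ∧ Gam S ⊆ S} with hZ
  have hM0Z : M0 ∈ Z := by
    refine ⟨fun a ha => ?_, fun a => ?_, subset_rfl, ?_⟩
    · choose G hG1 hG2 using hex a ha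
      refine ⟨(hyperfilter ℕ).map G, ha, ?_, fun N => ?_⟩
      · exact Eventually.of_forall (f := (hyperfilter ℕ : Filter ℕ)) hG1
      · have : ∀ᶠ n in (hyperfilter ℕ : Filter ℕ), far N (G n) := by
          apply Nat.hyperfilter_le_atTop
          filter_upwards [eventually_ge_atTop N] with n hn using far_mono _ _ _ hn (hG2 n)
        exact this
    · by_cases ha : 0 < a
      · have : {Q | (a, Q) ∈ M0} = MM time far a := by
          ext Q; simp [hM0, ha]
        rw [this]; exact isClosed_MM _ _ _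
      · have : {Q | (a, Q) ∈ M0} = ∅ := by
          ext Q; simp [hM0, ha]
        rw [this]; exact isClosed_empty
    · rintro ⟨a, Q⟩ ⟨ha, hQ⟩
      refine ⟨ha, ?_⟩
      refine (isClosed_MM time far a).closure_subset_iff.mpr ?_ (hQ 1 one_pos)
      rintro _ ⟨L, hL1, hL2, rfl⟩
      have hL : ∀ e ∈ L, e.2 ∈ MM time far e.1 := fun e he => (hL1 e he).1.2
      refine ⟨?_, fun N => ?_⟩
      · have := prodL_time time far h1 hmul L hL
        simp only at hL2
        rwa [hL2] at this
      · cases L with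
        | nil => simp at hL2; simp at ha; linarith
        | cons e L =>
          rw [prodL_cons]
          filter_upwards [(hL e List.mem_cons_self).2 N] with G hG
          exact Eventually.of_forall fun G' => far_mul _ _ _ hG
  obtain ⟨S, -, hS⟩ := zorn_superset_nonempty Z (fun c hc hch hne => by
    refine ⟨⋂₀ c, ⟨fun a ha => ?_, fun a => ?_, ?_, ?_⟩, fun s hs => Set.sInter_subset_of_mem hs⟩
    · have : Nonempty c := hne.to_subtype
      obtain ⟨Q, hQ⟩ := IsCompact.nonempty_iInter_of_directed_nonempty_isCompact_isClosed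
        (fun s : c => {Q : Ultrafilter W | (a, Q) ∈ s.1}) (by
          intro s t
          rcases hch.total s.2 t.2 with h | h
          · exact ⟨s, subset_rfl, fun Q hQ => h hQ⟩
          · exact ⟨t, fun Q hQ => h hQ, subset_rfl⟩)
        (fun s => (hc s.2).1 a ha) (fun s => ((hc s.2).2.1 a).isCompact)
        (fun s => (hc s.2).2.1 a)
      refine ⟨Q, fun s hs => ?_⟩
      exact Set.mem_iInter.mp hQ ⟨s, hs⟩
    · have : {Q | (a, Q) ∈ ⋂₀ c} = ⋂ s : c, {Q : Ultrafilter W | (a, Q) ∈ s.1} := by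
        ext Q; simp
      rw [this]
      exact isClosed_iInter fun s => (hc s.2).2.1 a
    · obtain ⟨s, hs⟩ := hne
      exact (Set.sInter_subset_of_mem hs).trans (hc hs).2.2.1
    · intro e he s hs
      exact (hc hs).2.2.2 (Gam_mono (Set.sInter_subset_of_mem hs) he)) M0 hM0Z
  have hSZ : S ∈ Z := hS.prop
  have hG : Gam S ∈ Z := by
    refine ⟨fun a ha => ?_, fun a => ?_, hSZ.2.2.2.trans hSZ.2.2.1, Gam_mono hSZ.2.2.2⟩
    · obtain ⟨Q, hQ⟩ := IsCompact.nonempty_iInter_of_directed_nonempty_isCompact_isClosed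
        (fun w : {w : ℝ // 0 < w} => closure (PP S a w.1)) (by
          intro s t
          rcases le_total s.1 t.1 with h | h
          · exact ⟨s, subset_rfl, closure_mono (PP_mono subset_rfl h)⟩
          · exact ⟨t, closure_mono (PP_mono subset_rfl h), subset_rfl⟩)
        (fun w => by
          obtain ⟨n, hn⟩ := exists_nat_gt (a / w.1)
          have hn0 : (0 : ℝ) < n := lt_trans (div_pos ha w.2) hn
          obtain ⟨Q, hQ⟩ := hSZ.1 (a / n) (div_pos ha hn0)
          refine ⟨prodL (List.replicate n (a / n, Q)), subset_closure ⟨_, ?_, ?_, rfl⟩⟩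
          · intro e he
            rw [List.eq_of_mem_replicate he]
            refine ⟨hQ, ?_⟩
            rw [div_lt_iff₀ w.2] at hn
            simp only
            rw [div_le_iff₀ hn0]
            linarith
          · simp only [List.map_replicate, List.sum_replicate, nsmul_eq_mul]
            field_simp)
        (fun w => isClosed_closure.isCompact) (fun w => isClosed_closure)
      exact ⟨Q, ha, fun w hw => Set.mem_iInter.mp hQ ⟨w, hw⟩⟩
    · by_cases ha : 0 < a
      · have : {Q | (a, Q) ∈ Gam S} = ⋂ w : {w : ℝ // 0 < w}, closure (PP S a w.1) := by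
          ext Q; simp [Gam, ha]
        rw [this]; exact isClosed_iInter fun w => isClosed_closure
      · have : {Q | (a, Q) ∈ Gam S} = ∅ := by
          ext Q; simp [Gam, ha]
        rw [this]; exact isClosed_empty
  have hle : S ⊆ Gam S := hS.le_of_le hG hSZ.2.2.2
  refine ⟨S, hSZ.1, fun e he => hSZ.2.2.1 he, fun e he w hw A hA => ?_⟩
  have := (hle he).2 w hw
  rw [ultrafilterBasis_is_basis.mem_closure_iff] at this
  obtain ⟨Q, hQ1, L, hL1, hL2, rfl⟩ := this _ ⟨A, rfl⟩ hA
  exact ⟨L, hL1, hL2, hQ1⟩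

end Crest.Agent.H5.FPP
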