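import Crest.Agent.H5.FPP.Weak

set_option autoImplicit false

/-! In a reflexive space every bounded set has a slice close to a finite-dimensional subspace. -/

namespace Crest.Agent.H5.FPP

open Filter Topology

variable {X : Type*} [NormedAddCommGroup X] [NormedSpace ℝ X]

theorem exists_annih (Y : Submodule ℝ X) (m : X) :
    ∃ ξ : StrongDual ℝ X, ‖ξ‖ ≤ 1 ∧ (∀ y ∈ Y, ξ y = 0) ∧ ξ m = ‖Y.mkQ m‖ := by
  obtain ⟨g, hg1, hg2⟩ := exists_dual_vector'' ℝ (Y.mkQ m)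
  have hb : ∀ x, ‖((g : (X ⧸ Y) →ₗ[ℝ] ℝ) ∘ₗ Y.mkQ) x‖ ≤ 1 * ‖x‖ := by
    intro x
    have h1 := g.le_opNorm (Y.mkQ x)
    have h2 : ‖Y.mkQ x‖ ≤ ‖x‖ := Submodule.Quotient.norm_mk_le Y x
    have h3 : ‖g‖ * ‖Y.mkQ x‖ ≤ 1 * ‖x‖ :=
      mul_le_mul hg1 h2 (norm_nonneg _) zero_le_one
    exact h1.trans h3
  refine ⟨LinearMap.mkContinuous _ 1 hb, LinearMap.mkContinuous_norm_le _ zero_le_one hb,
    fun y hy => ?_, ?_⟩
  · have : Y.mkQ y = 0 := by simpa using hy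
    simp [this]
  · simpa using hg2

theorem slice (hX : Function.Surjective (NormedSpace.inclusionInDoubleDual ℝ X))
    (M : Set X) (hne : M.Nonempty) (hb : ∀ m ∈ M, ‖m‖ ≤ 1) :
    ∃ (Φ : StrongDual ℝ X) (σ η : ℝ) (Y : Submodule ℝ X), 0 < η ∧ FiniteDimensional ℝ Y ∧
      (∀ m ∈ M, Φ m ≤ σ) ∧ (∀ η' > 0, ∃ m ∈ M, σ - η' < Φ m) ∧
      ∀ m ∈ M, σ - η < Φ m → ‖Y.mkQ m‖ ≤ 1 / 16 := by
  by_contra hcon
  obtain ⟨θ, hθ⟩ : ∃ θ : ℝ, θ = 1 / 200 := ⟨_, rfl⟩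
  have hθ0 : 0 < θ := by norm_num [hθ]
  have H : ∀ (k : ℕ) (s : StrongDual ℝ X × {Y : Submodule ℝ X // FiniteDimensional ℝ Y}),
      ∃ (m : X) (ξ : StrongDual ℝ X), m ∈ M ∧ (∀ m' ∈ M, s.1 m' < s.1 m + θ ^ (k + 1)) ∧
        ‖ξ‖ ≤ 1 ∧ (∀ y ∈ s.2.1, ξ y = 0) ∧ 1 / 16 ≤ ξ m := by
    rintro k ⟨Φ, Y, hY⟩
    have hbdd : BddAbove ((fun m => Φ m) '' M) := by
      refine ⟨‖Φ‖, ?_⟩
      rintro _ ⟨m, hm, rfl⟩
      have h1 := Φ.le_opNorm m
      have h2 : Φ m ≤ ‖Φ m‖ := le_abs_self _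
      have h3 := hb m hm
      nlinarith [norm_nonneg Φ]
    have hle : ∀ m ∈ M, Φ m ≤ sSup ((fun m => Φ m) '' M) :=
      fun m hm => le_csSup hbdd ⟨m, hm, rfl⟩
    have happ : ∀ η' > 0, ∃ m ∈ M, sSup ((fun m => Φ m) '' M) - η' < Φ m := by
      intro η' hη'
      obtain ⟨_, ⟨m, hm, rfl⟩, h⟩ := exists_lt_of_lt_csSup (hne.image (fun m => Φ m))
        (sub_lt_self (sSup ((fun m => Φ m) '' M)) hη')
      exact ⟨m, hm, h⟩
    by_contra hno
    apply hcon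
    refine ⟨Φ, sSup ((fun m => Φ m) '' M), θ ^ (k + 1), Y, by positivity, hY, hle, happ, ?_⟩
    intro m hm hlt
    by_contra hgt
    push Not at hgt
    obtain ⟨ξ, h1, h2, h3⟩ := exists_annih Y m
    apply hno
    refine ⟨m, ξ, hm, fun m' hm' => ?_, h1, h2, by rw [h3]; exact hgt.le⟩
    have := hle m' hm'
    simp only
    linarith
  choose mm xi hM hnear hxi1 hxi2 hxi3 using H
  let seq : ℕ → StrongDual ℝ X × {Y : Submodule ℝ X // FiniteDimensional ℝ Y} := fun n =>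
    Nat.rec (0, ⟨⊥, inferInstance⟩) (fun k s => (s.1 + θ ^ k • xi k s,
      ⟨s.2.1 ⊔ Submodule.span ℝ {mm k s}, by
        have := s.2.2
        infer_instance⟩)) n
  set m : ℕ → X := fun k => mm k (seq k) with hm
  set ξ : ℕ → StrongDual ℝ X := fun k => xi k (seq k) with hξ
  set Φ : ℕ → StrongDual ℝ X := fun k => (seq k).1 with hΦ
  set Y : ℕ → Submodule ℝ X := fun k => (seq k).2.1 with hY
  have hΦs : ∀ k, Φ (k + 1) = Φ k + θ ^ k • ξ k := fun k => rfl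
  have hYs : ∀ k, Y (k + 1) = Y k ⊔ Submodule.span ℝ {m k} := fun k => rfl
  have hYmono : Monotone Y := monotone_nat_of_le_succ fun k => by rw [hYs]; exact le_sup_left
  have hmY : ∀ i k, i < k → m i ∈ Y k := by
    intro i k hik
    apply hYmono (Nat.succ_le_of_lt hik)
    rw [hYs]
    exact Submodule.mem_sup_right (Submodule.mem_span_singleton_self _)
  have hdiff : ∀ k j, k + 1 ≤ j → ‖Φ j - Φ (k + 1)‖ ≤ 2 * θ ^ (k + 1) - 2 * θ ^ j := by
    intro k j hj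
    induction j, hj using Nat.le_induction with
    | base => simp
    | succ j hj ih =>
      have e : Φ (j + 1) - Φ (k + 1) = (Φ j - Φ (k + 1)) + θ ^ j • ξ j := by
        rw [hΦs j]; abel
      rw [e]
      have h1 : ‖θ ^ j • ξ j‖ ≤ θ ^ j := by
        rw [norm_smul, Real.norm_eq_abs, abs_of_pos (by positivity)]
        have := hxi1 j (seq j)
        nlinarith [pow_pos hθ0 j]
      have h2 := norm_add_le (Φ j - Φ (k + 1)) (θ ^ j • ξ j)
      have h3 : θ ^ (j + 1) = θ ^ j * θ := pow_succ _ _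
      have h4 : θ ^ j * θ ≤ θ ^ j * (1 / 2) :=
        mul_le_mul_of_nonneg_left (by norm_num [hθ]) (by positivity)
      refine h2.trans ((add_le_add ih h1).trans ?_)
      rw [h3]
      linarith
  refine double_limit hX m 1 (fun j => hb _ (hM j (seq j))) ξ (fun k => hxi1 k (seq k))
    0 (1 / 32) (by norm_num) (fun k => ?_) (fun j => ?_)
  · filter_upwards [eventually_ge_atTop (k + 1)] with j hj
    have a1 : Φ j (m k) < Φ j (m j) + θ ^ (j + 1) := hnear j (seq j) _ (hM k (seq k))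
    have a2 : Φ k (m j) < Φ k (m k) + θ ^ (k + 1) := hnear k (seq k) _ (hM j (seq j))
    have a3 : 1 / 16 ≤ ξ k (m k) := hxi3 k (seq k)
    have a4 := hdiff k j hj
    have a5 : ‖m j - m k‖ ≤ 2 := by
      have := norm_sub_le (m j) (m k)
      have b1 := hb _ (hM j (seq j))
      have b2 := hb _ (hM k (seq k))
      simp only [hm] at *
      linarith
    have a6 : (Φ j - Φ (k + 1)) (m j - m k) ≤ 4 * θ ^ (k + 1) := by
      have c1 := (Φ j - Φ (k + 1)).le_opNorm (m j - m k)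
      have c2 : (Φ j - Φ (k + 1)) (m j - m k) ≤ ‖(Φ j - Φ (k + 1)) (m j - m k)‖ :=
        le_abs_self _
      have c3 : ‖Φ j - Φ (k + 1)‖ ≤ 2 * θ ^ (k + 1) := by
        have : 0 < θ ^ j := by positivity
        linarith
      have c4 : ‖Φ j - Φ (k + 1)‖ * ‖m j - m k‖ ≤ (2 * θ ^ (k + 1)) * 2 :=
        mul_le_mul c3 a5 (norm_nonneg _) (by positivity)
      linarith
    have a7 : θ ^ (j + 1) ≤ θ ^ (k + 1) :=
      pow_le_pow_of_le_one hθ0.le (by norm_num [hθ]) (by omega)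
    rw [hΦs k] at a6
    simp only [sub_apply, add_apply, smul_apply, map_sub, smul_eq_mul] at a6
    have a8 : θ ^ k * (-(6 * θ)) ≤ θ ^ k * (ξ k (m j) - ξ k (m k)) := by
      have : θ ^ (k + 1) = θ ^ k * θ := pow_succ _ _
      nlinarith
    have a9 : -(6 * θ) ≤ ξ k (m j) - ξ k (m k) :=
      le_of_mul_le_mul_left a8 (by positivity)
    rw [hθ] at a9
    linarith
  · filter_upwards [eventually_gt_atTop j] with k hk
    exact (hxi2 k (seq k) _ (hmY j k hk)).le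

end Crest.Agent.H5.FPP
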