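import Crest.Agent.H5.FPP.Game
import Crest.Agent.H5.FPP.Slice
import Crest.Agent.H5.FPP.Kernel

set_option autoImplicit false

/-! The abstract contradiction: no "escaping" 1-Lipschitz field over a timed monoid. -/

namespace Crest.Agent.H5.FPP

open Filter Topology

variable {X : Type*} [NormedAddCommGroup X] [NormedSpace ℝ X]

theorem not_sep (Y : Submodule ℝ X) [FiniteDimensional ℝ Y] (y : ℕ → Y) (R c : ℝ) (hc : 0 < c)
    (hR : ∀ j, ‖y j‖ ≤ R) (hsep : ∀ i j, i < j → c ≤ ‖y j - y i‖) : False := by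
  have : ProperSpace Y := FiniteDimensional.proper_real Y
  obtain ⟨a, -, φ, hφ, ht⟩ := (isCompact_closedBall (0 : Y) R).tendsto_subseq
    (x := y) (fun n => by simpa using hR n)
  have h1 : ∀ᶠ n in atTop, ‖y (φ n) - a‖ < c / 2 := by
    have := (tendsto_iff_norm_sub_tendsto_zero.mp ht).eventually (gt_mem_nhds (half_pos hc))
    exact this
  obtain ⟨n, hn⟩ := eventually_atTop.mp h1
  have a1 := hn n le_rfl
  have a2 := hn (n + 1) (Nat.le_succ n)
  have a3 := hsep (φ n) (φ (n + 1)) (hφ (Nat.lt_succ_self n))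
  have a4 : y (φ (n + 1)) - y (φ n) = (y (φ (n + 1)) - a) - (y (φ n) - a) := by abel
  rw [a4] at a3
  have := norm_sub_le (y (φ (n + 1)) - a) (y (φ n) - a)
  linarith

theorem list_sum_nonneg {W : Type*} (L : List (ℝ × W)) (h : ∀ e ∈ L, 0 < e.1) :
    0 ≤ (L.map Prod.fst).sum := by
  induction L with
  | nil => simp
  | cons e L ih =>
    have a1 := h e List.mem_cons_self
    have a2 := ih fun e he => h e (List.mem_cons_of_mem _ he)
    simp only [List.map_cons, List.sum_cons]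
    linarith

theorem list_eq_nil {W : Type*} (L : List (ℝ × W)) (h : ∀ e ∈ L, 0 < e.1)
    (h0 : (L.map Prod.fst).sum = 0) : L = [] := by
  cases L with
  | nil => rfl
  | cons e L =>
    have a1 := h e List.mem_cons_self
    have a2 := list_sum_nonneg L fun e he => h e (List.mem_cons_of_mem _ he)
    simp only [List.map_cons, List.sum_cons] at h0
    linarith

theorem abstract (hX : Function.Surjective (NormedSpace.inclusionInDoubleDual ℝ X))
    {W : Type*} [Monoid W] (time : W → ℝ) (far : ℕ → W → Prop) (h1 : time 1 = 0)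
    (hmul : ∀ a b, time (a * b) = time a + time b) (hnn : ∀ a, 0 ≤ time a)
    (far_mul : ∀ N G G', far N G → far N (G * G'))
    (far_mono : ∀ N N' G, N ≤ N' → far N' G → far N G)
    (hex : ∀ a > 0, ∀ N, ∃ G, time G = a ∧ far N G)
    (V : W → X)
    (lip : ∀ H G, ‖V (H * G) - V H‖ ≤ Real.exp (-time H) - Real.exp (-time (H * G)))
    (esc : ∀ H H' : W, ∀ ε > 0, ∃ N, ∀ G, far N G →
      Real.exp (-time H) - Real.exp (-time (H * G)) - ε ≤ ‖V (H * G) - V H'‖) : False := by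
  obtain ⟨S, hS1, hS2, hS3⟩ := kernel time far h1 hmul far_mul far_mono hex
  obtain ⟨r, hr⟩ : ∃ r : W → ℝ, r = fun H => Real.exp (-time H) := ⟨_, rfl⟩
  have hr' : ∀ H, Real.exp (-time H) = r H := fun H => by rw [hr]
  simp only [hr'] at lip esc
  have rpos : ∀ H, 0 < r H := fun H => by rw [← hr']; exact Real.exp_pos _
  have rle : ∀ H, r H ≤ 1 := fun H => by
    rw [← hr']; exact Real.exp_le_one_iff.mpr (by linarith [hnn H])
  have rmul : ∀ H G, r (H * G) = r H * Real.exp (-time G) := fun H G => by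
    rw [← hr', ← hr', hmul, ← Real.exp_add]; congr 1; ring
  obtain ⟨wt, hwt⟩ : ∃ wt : W → ℝ → ℝ, wt = fun H a => r H * (1 - Real.exp (-a)) := ⟨_, rfl⟩
  have wt_eq : ∀ H G, r H - r (H * G) = wt H (time G) := fun H G => by
    rw [hwt, rmul]; ring
  have wt_pos : ∀ H a, 0 < a → 0 < wt H a := fun H a ha => by
    rw [hwt]
    have : Real.exp (-a) < 1 := Real.exp_lt_one_iff.mpr (by linarith)
    exact mul_pos (rpos H) (by linarith)
  have wt_le : ∀ H a, 0 < a → wt H a ≤ a := fun H a ha => by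
    rw [hwt]
    have h2 : Real.exp (-a) < 1 := Real.exp_lt_one_iff.mpr (by linarith)
    have h3 := Real.add_one_le_exp (-a)
    have h4 := rle H
    have h5 := rpos H
    simp only
    nlinarith
  have wt_mono : ∀ H a b, a ≤ b → wt H a ≤ wt H b := fun H a b hab => by
    rw [hwt]
    have : Real.exp (-b) ≤ Real.exp (-a) := Real.exp_le_exp.mpr (by linarith)
    exact mul_le_mul_of_nonneg_left (by linarith) (rpos H).le
  have wt_inj : ∀ H a b, wt H a = wt H b → a = b := fun H a b hab => by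
    rw [hwt] at hab
    have h2 := mul_left_cancel₀ (rpos H).ne' hab
    have h3 : Real.exp (-a) = Real.exp (-b) := by linarith
    have := Real.exp_injective h3
    linarith
  have hVQ : ∀ (H : W) (Q : Ultrafilter W), ∃ z, WLim (Q : Filter W) (fun G => V (H * G)) z := by
    intro H Q
    refine exists_wlim hX Q _ (1 + ‖V H‖) (Eventually.of_forall fun G => ?_)
    have a1 := lip H G
    have a2 := norm_add_le (V (H * G) - V H) (V H)
    have a3 := rle H
    have a4 := rpos (H * G)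
    simp only [sub_add_cancel] at a2
    linarith
  choose VQ hVQ using hVQ
  have VQ_le : ∀ H e, e ∈ S → ‖VQ H e.2 - V H‖ ≤ wt H e.1 := by
    intro H e he
    refine ((hVQ H e.2).sub_const (V H)).norm_le ?_
    filter_upwards [(hS2 e he).2.1] with G hG
    rw [← hG, ← wt_eq]
    exact lip H G
  set M : Set X := {m | ∃ H e, e ∈ S ∧ m = (wt H e.1)⁻¹ • (VQ H e.2 - V H)} with hM
  have hMne : M.Nonempty := by
    obtain ⟨Q, hQ⟩ := hS1 1 one_pos
    exact ⟨_, 1, (1, Q), hQ, rfl⟩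
  have hMb : ∀ m ∈ M, ‖m‖ ≤ 1 := by
    rintro _ ⟨H, e, he, rfl⟩
    have hp := wt_pos H e.1 (hS2 e he).1
    rw [norm_smul, Real.norm_eq_abs, abs_of_pos (inv_pos.mpr hp), inv_mul_le_iff₀ hp, mul_one]
    exact VQ_le H e he
  obtain ⟨Φ, σ, η, Y, hη, hY, hσ1, hσ2, hσ3⟩ := slice hX M hMne hMb
  have key : ∀ H e, e ∈ S → ‖Y.mkQ (VQ H e.2 - V H)‖ ≤
      wt H e.1 / 16 + (σ * wt H e.1 - Φ (VQ H e.2 - V H)) / η := by
    intro H e he
    have hp := wt_pos H e.1 (hS2 e he).1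
    have hm : (wt H e.1)⁻¹ • (VQ H e.2 - V H) ∈ M := ⟨H, e, he, rfl⟩
    have a1 := hσ1 _ hm
    rw [map_smul, smul_eq_mul, inv_mul_le_iff₀ hp] at a1
    by_cases hc : σ - η < Φ ((wt H e.1)⁻¹ • (VQ H e.2 - V H))
    · have a2 := hσ3 _ hm hc
      rw [map_smul, norm_smul, Real.norm_eq_abs, abs_of_pos (inv_pos.mpr hp),
        inv_mul_le_iff₀ hp] at a2
      have a3 : 0 ≤ (σ * wt H e.1 - Φ (VQ H e.2 - V H)) / η :=
        div_nonneg (by linarith) hη.le
      linarith
    · push Not at hc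
      rw [map_smul, smul_eq_mul, inv_mul_le_iff₀ hp] at hc
      have a2 : wt H e.1 ≤ (σ * wt H e.1 - Φ (VQ H e.2 - V H)) / η := by
        rw [le_div_iff₀ hη]; linarith
      have a3 : ‖Y.mkQ (VQ H e.2 - V H)‖ ≤ ‖VQ H e.2 - V H‖ :=
        Submodule.Quotient.norm_mk_le Y _
      have a4 := VQ_le H e he
      linarith
  obtain ⟨_, ⟨H₀, e₀, he₀, rfl⟩, hm₀⟩ := hσ2 (η / 64) (by positivity)
  obtain ⟨W₀, hW₀⟩ : ∃ W₀, W₀ = wt H₀ e₀.1 := ⟨_, rfl⟩
  have ha₀ : 0 < e₀.1 := (hS2 e₀ he₀).1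
  have hW₀p : 0 < W₀ := hW₀ ▸ wt_pos H₀ e₀.1 ha₀
  rw [map_smul, smul_eq_mul, ← hW₀, lt_inv_mul_iff₀ hW₀p] at hm₀
  obtain ⟨A, hA⟩ : ∃ A : W → Prop,
      A = fun G => Φ (VQ H₀ e₀.2) - η / 64 * W₀ < Φ (V (H₀ * G)) := ⟨_, rfl⟩
  have hA0 : ∀ᶠ G in (e₀.2 : Filter W), A G := by
    rw [hA]
    exact (hVQ H₀ e₀.2 Φ).eventually (lt_mem_nhds (by
      have : 0 < η / 64 * W₀ := by positivity
      linarith))
  -- the main claim: arbitrarily far words close to `Y`
  have main : ∀ N, ∃ G, far N G ∧ time G = e₀.1 ∧ ‖Y.mkQ (V (H₀ * G) - V H₀)‖ < W₀ / 4 := by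
    intro N
    obtain ⟨sg, hsg⟩ : ∃ sg : W × X → ℝ, sg = fun p => r H₀ - r (H₀ * p.1) := ⟨_, rfl⟩
    obtain ⟨Inv, hInv⟩ : ∃ Inv : W × X → List (ℝ × Ultrafilter W) → Prop, Inv = fun p L =>
        (∀ e ∈ L, e ∈ S) ∧ time p.1 + (L.map Prod.fst).sum = e₀.1 ∧
        (∀ᶠ G'' in (prodL L : Filter W), A (p.1 * G'')) ∧
        ‖Y.mkQ (V (H₀ * p.1) - V H₀ - p.2)‖ ≤
          sg p / 16 + (σ * sg p - Φ (V (H₀ * p.1) - V H₀ - p.2)) / η ∧
        (p.1 = 1 ∨ far N p.1) := ⟨_, rfl⟩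
    have step : ∀ (Ψ : List (StrongDual ℝ X)) (δ : ℝ), 0 < δ → ∀ p e L, Inv p (e :: L) →
        ∃ p', Inv p' L ∧ Rel Prod.snd sg Ψ δ p p' ∧ sg p' ≤ sg p + e.1 := by
      rintro Ψ δ hδ ⟨G, x⟩ e L hI
      rw [hInv] at hI
      obtain ⟨i1, i2, i3, i4, i5⟩ := hI
      simp only at i2 i3 i4 i5
      have he : e ∈ S := i1 e List.mem_cons_self
      have ha := (hS2 e he).1
      have hp := wt_pos (H₀ * G) e.1 ha
      rw [prodL_cons] at i3
      have e1 : ∀ᶠ G₁ in (e.2 : Filter W), ∀ ψ ∈ Ψ,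
          |ψ (V (H₀ * G * G₁) - VQ (H₀ * G) e.2)| ≤ δ * wt (H₀ * G) e.1 := by
        have : ∀ ψ : StrongDual ℝ X, ∀ᶠ G₁ in (e.2 : Filter W),
            |ψ (V (H₀ * G * G₁) - VQ (H₀ * G) e.2)| ≤ δ * wt (H₀ * G) e.1 := by
          intro ψ
          have t := ((hVQ (H₀ * G) e.2).sub_const (VQ (H₀ * G) e.2) ψ).abs
          simp only [sub_self, map_zero, abs_zero] at t
          exact t.eventually (ge_mem_nhds (mul_pos hδ hp))
        exact (List.finite_toSet Ψ).eventually_all.mpr fun ψ _ => this ψ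
      obtain ⟨G₁, g1, g2, g3, g4⟩ :=
        (i3.and (e1.and ((hS2 e he).2.1.and ((hS2 e he).2.2 N)))).exists
      have s1 : sg (G * G₁, x + (V (H₀ * G * G₁) - VQ (H₀ * G) e.2)) =
          sg (G, x) + wt (H₀ * G) e.1 := by
        rw [hsg, ← g3, ← wt_eq]
        simp only [mul_assoc]
        ring
      refine ⟨(G * G₁, x + (V (H₀ * G * G₁) - VQ (H₀ * G) e.2)), ?_, ⟨?_, ?_, ?_⟩, ?_⟩
      · rw [hInv]
        refine ⟨fun e he => i1 e (List.mem_cons_of_mem _ he), ?_, ?_, ?_, ?_⟩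
        · simp only [List.map_cons, List.sum_cons] at i2
          simp only [hmul, g3]
          linarith
        · simpa only [mul_assoc] using g1
        · rw [s1]
          have z1 : V (H₀ * (G * G₁)) - V H₀ - (x + (V (H₀ * G * G₁) - VQ (H₀ * G) e.2)) =
              (V (H₀ * G) - V H₀ - x) + (VQ (H₀ * G) e.2 - V (H₀ * G)) := by
            rw [mul_assoc]; abel
          simp only
          rw [z1, map_add, map_add]
          have b1 := norm_add_le (Y.mkQ (V (H₀ * G) - V H₀ - x))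
            (Y.mkQ (VQ (H₀ * G) e.2 - V (H₀ * G)))
          have b2 := key (H₀ * G) e he
          have b3 : (σ * (sg (G, x) + wt (H₀ * G) e.1) - (Φ (V (H₀ * G) - V H₀ - x) +
              Φ (VQ (H₀ * G) e.2 - V (H₀ * G)))) / η =
              (σ * sg (G, x) - Φ (V (H₀ * G) - V H₀ - x)) / η +
              (σ * wt (H₀ * G) e.1 - Φ (VQ (H₀ * G) e.2 - V (H₀ * G))) / η := by ring
          rw [b3]
          linarith
        · right
          rcases i5 with h | h
          · simp only [h, one_mul]; exact g4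
          · exact far_mul _ _ _ h
      · rw [s1]; linarith
      · rw [s1]
        simp only [add_sub_cancel_left]
        have z1 : V (H₀ * G * G₁) - VQ (H₀ * G) e.2 =
            (V (H₀ * G * G₁) - V (H₀ * G)) - (VQ (H₀ * G) e.2 - V (H₀ * G)) := by abel
        rw [z1]
        have b1 := norm_sub_le (V (H₀ * G * G₁) - V (H₀ * G)) (VQ (H₀ * G) e.2 - V (H₀ * G))
        have b2 := VQ_le (H₀ * G) e he
        have b3 := lip (H₀ * G) G₁
        rw [wt_eq, g3] at b3
        linarith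
      · intro ψ hψ
        rw [s1]
        simp only [add_sub_cancel_left]
        exact g2 ψ hψ
      · rw [s1]
        linarith [wt_le (H₀ * G) e.1 ha]
    have inner : ∀ (Ψ : List (StrongDual ℝ X)) (δ : ℝ), 0 < δ → ∀ τ w : ℝ, ∀ L₂ L₁ p,
        (∀ e ∈ L₁, e.1 ≤ w) → Inv p (L₁ ++ L₂) → sg p < τ →
        (∃ p' L, Inv p' L ∧ Rel Prod.snd sg Ψ δ p p' ∧ τ ≤ sg p' ∧ sg p' ≤ τ + w) ∨
        ∃ p', Inv p' L₂ ∧ Rel Prod.snd sg Ψ δ p p' ∧ sg p' < τ := by
      intro Ψ δ hδ τ w L₂ L₁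
      induction L₁ with
      | nil => exact fun p _ hI hp => Or.inr ⟨p, hI, Rel.refl _ _ _ _ _, hp⟩
      | cons e L₁ ih =>
        intro p hw hI hp
        obtain ⟨p', j1, j2, j3⟩ := step Ψ δ hδ p e (L₁ ++ L₂) hI
        have hew := hw e List.mem_cons_self
        rcases lt_or_ge (sg p') τ with h | h
        · rcases ih p' (fun e he => hw e (List.mem_cons_of_mem _ he)) j1 h with
            ⟨p'', L, k1, k2, k3⟩ | ⟨p'', k1, k2, k3⟩
          · exact Or.inl ⟨p'', L, k1, j2.trans k2, k3⟩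
          · exact Or.inr ⟨p'', k1, j2.trans k2, k3⟩
        · exact Or.inl ⟨p', _, j1, j2, h, by linarith⟩
    have sg_eq : ∀ p, sg p = wt H₀ (time p.1) := fun p => by rw [hsg, ← wt_eq]
    have outer : ∀ (Ψ : List (StrongDual ℝ X)) (δ : ℝ), 0 < δ → ∀ τ w : ℝ, 0 < w → τ ≤ W₀ →
        ∀ L p, Inv p L → sg p < τ →
        ∃ p' L, Inv p' L ∧ Rel Prod.snd sg Ψ δ p p' ∧ τ ≤ sg p' ∧ sg p' ≤ τ + w := by
      intro Ψ δ hδ τ w hw hτ L
      induction L with
      | nil =>
        intro p hI hp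
        rw [hInv] at hI
        have := hI.2.1
        simp only [List.map_nil, List.sum_nil, add_zero] at this
        rw [sg_eq, this, ← hW₀] at hp
        linarith
      | cons e L₂ ih =>
        intro p hI hp
        have hI' : ∃ L₁, (∀ e ∈ L₁, e.1 ≤ w) ∧ Inv p (L₁ ++ L₂) := by
          rw [hInv] at hI ⊢
          obtain ⟨i1, i2, i3, i4, i5⟩ := hI
          rw [prodL_cons] at i3
          obtain ⟨L₁, l1, l2, l3⟩ := hS3 e (i1 e List.mem_cons_self) w hw _ i3
          refine ⟨L₁, fun e he => (l1 e he).2, fun e' he' => ?_, ?_, ?_, i4, i5⟩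
          · rcases List.mem_append.mp he' with h | h
            · exact (l1 e' h).1
            · exact i1 e' (List.mem_cons_of_mem _ h)
          · simp only [List.map_cons, List.sum_cons] at i2
            simp only [List.map_append, List.sum_append, l2]
            exact i2
          · rw [prodL_append]
            exact l3
        obtain ⟨L₁, l1, l2⟩ := hI'
        rcases inner Ψ δ hδ τ w L₂ L₁ p l1 l2 hp with h | ⟨p', k1, k2, k3⟩
        · exact h
        · obtain ⟨p'', L, m1, m2, m3⟩ := ih p' k1 k3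
          exact ⟨p'', L, m1, k2.trans m2, m3⟩
    have hI0 : Inv (1, 0) [e₀] := by
      rw [hInv]
      refine ⟨by simpa using he₀, by simp [h1], ?_, by simp [hsg], Or.inl rfl⟩
      rw [prodL_cons]
      simpa only [prodL_nil, mul_one, one_mul] using hA0
    obtain ⟨ε, hε⟩ : ∃ ε : ℝ, ε = min (1 / 16) (η / (32 * (‖Φ‖ + 1))) := ⟨_, rfl⟩
    have hε0 : 0 < ε := by rw [hε]; positivity
    have hε1 : ε ≤ 1 / 16 := by rw [hε]; exact min_le_left _ _
    have hε2 : ‖Φ‖ * ε ≤ η / 32 := by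
      have : ε ≤ η / (32 * (‖Φ‖ + 1)) := by rw [hε]; exact min_le_right _ _
      rw [le_div_iff₀ (by positivity)] at this
      nlinarith
    obtain ⟨⟨⟨G, x⟩, L, hI⟩, n1, n2⟩ := game hX (N := {p : W × X // ∃ L, Inv p L})
      (fun ν => ν.1.2) (fun ν => sg ν.1) W₀ hW₀p
      (by
        rintro ⟨p, L, hI⟩
        rw [hInv] at hI
        have := list_sum_nonneg L fun e he => (hS2 e (hI.1 e he)).1
        simp only
        rw [sg_eq, hW₀]
        exact wt_mono _ _ _ (by linarith [hI.2.1]))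
      (by
        rintro ⟨p, L, hI⟩ Ψ δ hδ τ w hw h1 h2
        obtain ⟨p', L', m1, m2, m3⟩ := outer Ψ δ hδ τ w hw h2 L p hI h1
        exact ⟨⟨p', L', m1⟩, m2, m3⟩)
      ⟨(1, 0), _, hI0⟩ rfl (by simp [hsg]) ε hε0
    simp only at n1 n2
    rw [hInv] at hI
    obtain ⟨i1, i2, i3, i4, i5⟩ := hI
    simp only at i2 i3 i4 i5
    have ht : time G = e₀.1 := by
      rw [sg_eq, hW₀] at n1
      exact wt_inj _ _ _ n1
    have hL : L = [] := list_eq_nil L (fun e he => (hS2 e (i1 e he)).1) (by linarith)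
    subst hL
    rw [prodL_nil, mul_one, hA] at i3
    refine ⟨G, ?_, ht, ?_⟩
    · rcases i5 with h | h
      · rw [h, h1] at ht; linarith
      · exact h
    · rw [n1] at i4
      have z1 : V (H₀ * G) - V H₀ = (V (H₀ * G) - V H₀ - x) + x := by abel
      have b1 : ‖Y.mkQ x‖ ≤ ‖x‖ := Submodule.Quotient.norm_mk_le Y _
      have b2 := norm_add_le (Y.mkQ (V (H₀ * G) - V H₀ - x)) (Y.mkQ x)
      rw [← map_add, ← z1] at b2
      have b3 : Φ x ≤ η / 32 * W₀ := by
        have c1 := Φ.le_opNorm x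
        have c2 : Φ x ≤ ‖Φ x‖ := le_abs_self _
        have c3 : ‖Φ‖ * ‖x‖ ≤ ‖Φ‖ * (ε * W₀) := mul_le_mul_of_nonneg_left n2 (norm_nonneg _)
        have c4 : ‖Φ‖ * ε * W₀ ≤ η / 32 * W₀ := mul_le_mul_of_nonneg_right hε2 hW₀p.le
        linarith
      have b4 : (σ * W₀ - Φ (V (H₀ * G) - V H₀ - x)) / η ≤ W₀ / 16 := by
        rw [div_le_iff₀ hη]
        simp only [map_sub] at hm₀ ⊢
        linarith
      have b5 : ε * W₀ ≤ 1 / 16 * W₀ := mul_le_mul_of_nonneg_right hε1 hW₀p.le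
      linarith
  -- build a separated sequence
  have next : ∀ l : List W, ∃ G, (∀ G' ∈ l, 3 / 4 * W₀ ≤ ‖V (H₀ * G) - V (H₀ * G')‖) ∧
      ∃ y : Y, ‖V (H₀ * G) - V H₀ - y‖ < W₀ / 4 := by
    intro l
    choose Nf hNf using fun G' : W => esc H₀ (H₀ * G') (W₀ / 4) (by positivity)
    obtain ⟨G, g1, g2, g3⟩ := main ((l.map Nf).sum)
    refine ⟨G, fun G' hG' => ?_, ?_⟩
    · have := hNf G' G (far_mono _ _ _
        (List.single_le_sum (fun _ _ => Nat.zero_le _) _ (List.mem_map_of_mem hG')) g1)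
      rw [wt_eq, g2, ← hW₀] at this
      linarith
    · obtain ⟨m, m1, m2⟩ := Submodule.Quotient.norm_mk_lt (Y.mkQ (V (H₀ * G) - V H₀))
        (sub_pos.mpr g3)
      have m3 : V (H₀ * G) - V H₀ - m ∈ Y := by
        rw [← Submodule.Quotient.eq]
        exact m1.symm
      refine ⟨⟨_, m3⟩, ?_⟩
      simp only [sub_sub_cancel]
      linarith
  choose nx nx1 yy nx2 using next
  let seq : ℕ → List W := fun n => Nat.rec [] (fun _ l => nx l :: l) n
  have hseq : ∀ n, seq (n + 1) = nx (seq n) :: seq n := fun n => rfl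
  have hmem : ∀ i j, i < j → nx (seq i) ∈ seq j := by
    intro i j hij
    induction j, hij using Nat.le_induction with
    | base => rw [hseq]; exact List.mem_cons_self
    | succ j _ ih => rw [hseq]; exact List.mem_cons_of_mem _ ih
  refine not_sep Y (fun j => yy (seq j)) (1 + W₀ / 4) (W₀ / 4) (by positivity) (fun j => ?_)
    (fun i j hij => ?_)
  · have a1 := nx2 (seq j)
    have a2 := lip H₀ (nx (seq j))
    have a3 := rle H₀
    have a4 := rpos (H₀ * nx (seq j))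
    have a5 := norm_sub_le (V (H₀ * nx (seq j)) - V H₀)
      (V (H₀ * nx (seq j)) - V H₀ - (yy (seq j) : X))
    rw [sub_sub_cancel] at a5
    have a6 : ‖yy (seq j)‖ = ‖(yy (seq j) : X)‖ := rfl
    linarith
  · have a1 := nx2 (seq j)
    have a2 := nx2 (seq i)
    have a3 := nx1 (seq j) _ (hmem i j hij)
    have a4 : V (H₀ * nx (seq j)) - V (H₀ * nx (seq i)) =
        ((yy (seq j) : X) - yy (seq i)) + ((V (H₀ * nx (seq j)) - V H₀ - (yy (seq j) : X)) -
          (V (H₀ * nx (seq i)) - V H₀ - (yy (seq i) : X))) := by abel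
    rw [a4] at a3
    have a5 := norm_add_le ((yy (seq j) : X) - yy (seq i))
      ((V (H₀ * nx (seq j)) - V H₀ - (yy (seq j) : X)) -
          (V (H₀ * nx (seq i)) - V H₀ - (yy (seq i) : X)))
    have a6 := norm_sub_le (V (H₀ * nx (seq j)) - V H₀ - (yy (seq j) : X))
          (V (H₀ * nx (seq i)) - V H₀ - (yy (seq i) : X))
    have a7 : ‖yy (seq j) - yy (seq i)‖ = ‖(yy (seq j) : X) - yy (seq i)‖ := rfl
    linarith

end Crest.Agent.H5.FPP
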