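import Crest.Agent.H5.FPP.Weak

set_option autoImplicit false

/-! The game lemma: adaptively weighted sums of weakly null increments can be made small. -/

namespace Crest.Agent.H5.FPP

open Filter Topology

variable {X : Type*} [NormedAddCommGroup X] [NormedSpace ℝ X]

/-- numeric extension relation between nodes -/
def Rel {N : Type*} (x : N → X) (σ : N → ℝ) (Ψ : List (StrongDual ℝ X)) (δ : ℝ) (a b : N) :
    Prop :=
  σ a ≤ σ b ∧ ‖x b - x a‖ ≤ 2 * (σ b - σ a) ∧ ∀ ψ ∈ Ψ, |ψ (x b - x a)| ≤ δ * (σ b - σ a)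

theorem Rel.refl {N : Type*} (x : N → X) (σ : N → ℝ) (Ψ : List (StrongDual ℝ X)) (δ : ℝ)
    (a : N) : Rel x σ Ψ δ a a := by
  refine ⟨le_rfl, by simp, fun ψ _ => by simp⟩

theorem Rel.trans {N : Type*} {x : N → X} {σ : N → ℝ} {Ψ : List (StrongDual ℝ X)} {δ : ℝ}
    {a b c : N} (h1 : Rel x σ Ψ δ a b) (h2 : Rel x σ Ψ δ b c) : Rel x σ Ψ δ a c := by
  have e : x c - x a = (x c - x b) + (x b - x a) := by abel
  refine ⟨h1.1.trans h2.1, ?_, fun ψ hψ => ?_⟩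
  · rw [e]
    have := norm_add_le (x c - x b) (x b - x a)
    linarith [h1.2.1, h2.2.1]
  · rw [e, map_add]
    have := abs_add_le (ψ (x c - x b)) (ψ (x b - x a))
    have a1 := h1.2.2 ψ hψ
    have a2 := h2.2.2 ψ hψ
    linarith

theorem Rel.mono {N : Type*} {x : N → X} {σ : N → ℝ} {Ψ Ψ' : List (StrongDual ℝ X)} {δ δ' : ℝ}
    {a b : N} (h : Rel x σ Ψ' δ' a b) (hΨ : ∀ ψ ∈ Ψ, ψ ∈ Ψ') (hδ : δ' ≤ δ) :
    Rel x σ Ψ δ a b :=
  ⟨h.1, h.2.1, fun ψ hψ => (h.2.2 ψ (hΨ ψ hψ)).trans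
    (mul_le_mul_of_nonneg_right hδ (by linarith [h.1]))⟩

theorem game (hX : Function.Surjective (NormedSpace.inclusionInDoubleDual ℝ X))
    {N : Type*} (x : N → X) (σ : N → ℝ) (W : ℝ) (hW : 0 < W) (hle : ∀ ν, σ ν ≤ W)
    (hstep : ∀ (ν : N) (Ψ : List (StrongDual ℝ X)) (δ : ℝ), 0 < δ → ∀ τ w : ℝ, 0 < w →
      σ ν < τ → τ ≤ W → ∃ ν', Rel x σ Ψ δ ν ν' ∧ τ ≤ σ ν' ∧ σ ν' ≤ τ + w)
    (ν0 : N) (hx0 : x ν0 = 0) (hσ0 : σ ν0 = 0) (ε : ℝ) (hε : 0 < ε) :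
    ∃ ν, σ ν = W ∧ ‖x ν‖ ≤ ε * W := by
  by_contra hcon
  push Not at hcon
  obtain ⟨c, hc⟩ : ∃ c : ℝ, c = ε / 2 := ⟨_, rfl⟩
  have hc0 : 0 < c := by rw [hc]; positivity
  have hεW : 0 < ε * W := mul_pos hε hW
  set h : N → ℝ := fun ν => ‖x ν‖ - c * σ ν with hh
  have hA : ∀ ν, ε * W / 2 - 2 * (W - σ ν) < h ν := by
    intro ν
    have h1 : ε * W - 2 * (W - σ ν) < ‖x ν‖ := by
      rcases (hle ν).eq_or_lt with he | hlt
      · have := hcon ν he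
        rw [he]; linarith
      · obtain ⟨ν', hr, h1, -⟩ := hstep ν [] 1 one_pos W 1 one_pos hlt le_rfl
        have he : σ ν' = W := le_antisymm (hle _) h1
        have h2 := hcon ν' he
        have h3 := hr.2.1
        have h4 : ‖x ν'‖ ≤ ‖x ν' - x ν‖ + ‖x ν‖ := by
          have := norm_add_le (x ν' - x ν) (x ν)
          simpa using this
        rw [he] at h3
        linarith
    have h2 : c * σ ν ≤ c * W := mul_le_mul_of_nonneg_left (hle ν) hc0.le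
    simp only [hh]
    rw [hc] at h2 ⊢
    linarith
  obtain ⟨w, hw⟩ : ∃ w : ℕ → ℝ, w = fun k => ε * W / 64 * (1 / 2) ^ k := ⟨_, rfl⟩
  obtain ⟨B, hB⟩ : ∃ B : ℕ → ℝ, B = fun k => ε * W / 8 * (1 - (1 / 2) ^ k) := ⟨_, rfl⟩
  obtain ⟨δ, hδ⟩ : ∃ δ : ℕ → ℝ, δ = fun k : ℕ => 1 / ((k : ℝ) + 1) := ⟨_, rfl⟩
  have hw0 : ∀ k, 0 < w k := fun k => by rw [hw]; positivity
  have hw1 : ∀ k, w k ≤ ε * W / 64 := fun k => by
    rw [hw]
    have : ((1 : ℝ) / 2) ^ k ≤ 1 := pow_le_one₀ (by norm_num) (by norm_num)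
    simp only
    nlinarith
  have hB1 : ∀ k, B k ≤ ε * W / 8 := fun k => by
    rw [hB]
    have : 0 < ((1 : ℝ) / 2) ^ k := by positivity
    simp only
    nlinarith
  have hBs : ∀ k, B (k + 1) = B k + 4 * w k := fun k => by
    rw [hB, hw]; simp only; rw [pow_succ]; ring
  have hδ0 : ∀ k, 0 < δ k := fun k => by rw [hδ]; positivity
  have hδm : ∀ k j, k ≤ j → δ j ≤ δ k := fun k j hkj => by
    rw [hδ]
    exact Nat.one_div_le_one_div hkj
  have hδt : Tendsto δ atTop (𝓝 0) := by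
    rw [hδ]; exact tendsto_one_div_add_atTop_nhds_zero_nat
  have H : ∀ (k : ℕ) (s : {p : N × List (StrongDual ℝ X) // h p.1 ≤ B k}),
      ∃ (ν : N) (φ : StrongDual ℝ X) (μ' : N), Rel x σ s.1.2 (δ k) s.1.1 ν ∧
        (∀ ν', Rel x σ s.1.2 (δ k) s.1.1 ν' → h ν ≤ h ν' + c * w k / 2) ∧ ‖φ‖ ≤ 1 ∧
        φ (x ν) = ‖x ν‖ ∧ Rel x σ (φ :: s.1.2) (δ (k + 1)) ν μ' ∧ σ ν + w k ≤ σ μ' ∧
        h μ' ≤ B (k + 1) := by
    rintro k ⟨⟨μ, Ψ⟩, hμ⟩
    simp only at hμ ⊢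
    have hη : 0 < c * w k / 2 := by have := hw0 k; positivity
    have hbdd : BddBelow (h '' {ν' | Rel x σ Ψ (δ k) μ ν'}) := by
      refine ⟨-(c * W), ?_⟩
      rintro _ ⟨ν', -, rfl⟩
      have h2 : c * σ ν' ≤ c * W := mul_le_mul_of_nonneg_left (hle ν') hc0.le
      simp only [hh]
      linarith [norm_nonneg (x ν')]
    have hne : (h '' {ν' | Rel x σ Ψ (δ k) μ ν'}).Nonempty :=
      ⟨_, μ, Rel.refl x σ Ψ _ μ, rfl⟩
    obtain ⟨_, ⟨ν1, hν1, rfl⟩, hlt⟩ := exists_lt_of_csInf_lt hne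
      (lt_add_of_pos_right (sInf (h '' {ν' | Rel x σ Ψ (δ k) μ ν'})) hη)
    have hex : ∃ ν, Rel x σ Ψ (δ k) μ ν ∧ h ν ≤ h μ ∧ h ν ≤ h ν1 := by
      rcases le_total (h ν1) (h μ) with h1 | h1
      · exact ⟨ν1, hν1, h1, le_rfl⟩
      · exact ⟨μ, Rel.refl x σ Ψ _ μ, le_rfl, h1⟩
    obtain ⟨ν, hν, hν2, hν3⟩ := hex
    obtain ⟨φ, hφ1, hφ2⟩ := exists_dual_vector'' ℝ (x ν)
    have hρ : σ ν + w k ≤ W := by
      have := hA ν
      have := hB1 k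
      have := hw1 k
      linarith
    obtain ⟨μ', hr, h1, h2⟩ := hstep ν (φ :: Ψ) (δ (k + 1)) (hδ0 _) (σ ν + w k) (w k) (hw0 k)
      (by linarith [hw0 k]) hρ
    refine ⟨ν, φ, μ', hν, fun ν' hν' => ?_, hφ1, by simpa using hφ2, hr, h1, ?_⟩
    · have := csInf_le hbdd ⟨ν', hν', rfl⟩
      linarith
    · have h3 := hr.2.1
      have h4 : ‖x μ'‖ ≤ ‖x μ' - x ν‖ + ‖x ν‖ := by
        have := norm_add_le (x μ' - x ν) (x ν)
        simpa using this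
      have h5 : c * σ ν ≤ c * σ μ' := mul_le_mul_of_nonneg_left hr.1 hc0.le
      rw [hBs]
      simp only [hh] at hν2 hμ ⊢
      linarith
  choose nn ff mm r1 near f1 f2 r2 fw fB using H
  let seq : (k : ℕ) → {p : N × List (StrongDual ℝ X) // h p.1 ≤ B k} := fun n =>
    Nat.rec ⟨(ν0, []), by simp [hh, hx0, hσ0, hB]⟩
      (fun k s => ⟨(mm k s, ff k s :: s.1.2), fB k s⟩) n
  obtain ⟨ν, hν⟩ : ∃ ν : ℕ → N, ν = fun k => nn k (seq k) := ⟨_, rfl⟩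
  obtain ⟨φ, hφ⟩ : ∃ φ : ℕ → StrongDual ℝ X, φ = fun k => ff k (seq k) := ⟨_, rfl⟩
  obtain ⟨μ, hμ⟩ : ∃ μ : ℕ → N, μ = fun k => (seq k).1.1 := ⟨_, rfl⟩
  obtain ⟨Ψ, hΨ⟩ : ∃ Ψ : ℕ → List (StrongDual ℝ X), Ψ = fun k => (seq k).1.2 := ⟨_, rfl⟩
  have hΨs : ∀ k, Ψ (k + 1) = φ k :: Ψ k := fun k => by rw [hΨ, hφ]
  have R1 : ∀ k, Rel x σ (Ψ k) (δ k) (μ k) (ν k) := fun k => by
    rw [hΨ, hμ, hν]; exact r1 k (seq k)
  have Near : ∀ k ν', Rel x σ (Ψ k) (δ k) (μ k) ν' → h (ν k) ≤ h ν' + c * w k / 2 := fun k => by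
    rw [hΨ, hμ, hν]; exact near k (seq k)
  have F1 : ∀ k, ‖φ k‖ ≤ 1 := fun k => by rw [hφ]; exact f1 k (seq k)
  have F2 : ∀ k, φ k (x (ν k)) = ‖x (ν k)‖ := fun k => by rw [hφ, hν]; exact f2 k (seq k)
  have R2 : ∀ k, Rel x σ (Ψ (k + 1)) (δ (k + 1)) (ν k) (μ (k + 1)) := fun k => by
    rw [hΨ, hμ, hν]; exact r2 k (seq k)
  have Fw : ∀ k, σ (ν k) + w k ≤ σ (μ (k + 1)) := fun k => by
    rw [hμ, hν]; exact fw k (seq k)
  clear hν hφ hμ hΨ
  clear_value seq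
  clear seq r1 near f1 f2 r2 fw fB nn ff mm
  have hΨm : ∀ k j, k ≤ j → ∀ ψ ∈ Ψ k, ψ ∈ Ψ j := by
    intro k j hkj
    induction j, hkj using Nat.le_induction with
    | base => exact fun _ h => h
    | succ j _ ih => exact fun ψ hψ => by rw [hΨs]; exact List.mem_cons_of_mem _ (ih ψ hψ)
  have hφΨ : ∀ i k, i ≤ k → φ i ∈ Ψ (k + 1) := fun i k hik =>
    hΨm (i + 1) (k + 1) (by omega) _ (by rw [hΨs]; exact List.mem_cons_self)
  have chain : ∀ k j, k ≤ j → Rel x σ (Ψ (k + 1)) (δ (k + 1)) (ν k) (ν j) := by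
    intro k j hkj
    induction j, hkj using Nat.le_induction with
    | base => exact Rel.refl _ _ _ _ _
    | succ j hj ih =>
      exact ih.trans (((R2 j).trans (R1 (j + 1))).mono (hΨm _ _ (by omega)) (hδm _ _ (by omega)))
  have near' : ∀ k j, k ≤ j → h (ν k) ≤ h (ν j) + c * w k / 2 := fun k j hkj =>
    Near k _ ((R1 k).trans ((chain k j hkj).mono (hΨm _ _ (by omega)) (hδm _ _ (by omega))))
  have smono : Monotone fun k => σ (ν k) := fun k j hkj => (chain k j hkj).1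
  have sbdd : BddAbove (Set.range fun k => σ (ν k)) := ⟨W, by rintro _ ⟨k, rfl⟩; exact hle _⟩
  obtain ⟨s, hs⟩ : ∃ s : ℝ, s = ⨆ k, σ (ν k) := ⟨_, rfl⟩
  have st : Tendsto (fun k => σ (ν k)) atTop (𝓝 s) := by
    rw [hs]; exact tendsto_atTop_ciSup smono sbdd
  have sle : ∀ k, σ (ν k) ≤ s := fun k => by rw [hs]; exact le_ciSup sbdd k
  have hT : ∀ k, w k ≤ s - σ (ν k) := fun k => by
    have a1 := Fw k
    have a2 := (R1 (k + 1)).1
    have a3 := sle (k + 1)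
    linarith
  have hT0 : ∀ k, 0 < s - σ (ν k) := fun k => (hw0 k).trans_le (hT k)
  set U : Ultrafilter ℕ := hyperfilter ℕ
  have hU : (U : Filter ℕ) ≤ atTop := Nat.hyperfilter_le_atTop
  obtain ⟨z, hz⟩ := exists_wlim hX U (fun j => x (ν j)) (2 * (W - σ (ν 0)) + ‖x (ν 0)‖)
    (Eventually.of_forall fun j => by
      have a1 := (chain 0 j (Nat.zero_le j)).2.1
      have a2 := norm_add_le (x (ν j) - x (ν 0)) (x (ν 0))
      have a3 := hle (ν j)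
      simp only [sub_add_cancel] at a2
      linarith)
  have A1 : ∀ k, ‖z - x (ν k)‖ ≤ 2 * (s - σ (ν k)) := fun k => by
    refine (hz.sub_const (x (ν k))).norm_le (hU ?_)
    filter_upwards [eventually_ge_atTop k] with j hj
    have a1 := (chain k j hj).2.1
    have a2 := sle j
    linarith
  have A2 : ∀ i k, i ≤ k → |φ i (z - x (ν k))| ≤ δ (k + 1) * (s - σ (ν k)) := fun i k hik => by
    refine le_of_tendsto ((hz.sub_const (x (ν k)) (φ i)).abs) (hU ?_)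
    filter_upwards [eventually_ge_atTop k] with j hj
    have a1 := (chain k j hj).2.2 _ (hφΨ i k hik)
    have a2 := sle j
    refine a1.trans (mul_le_mul_of_nonneg_left (by linarith) (hδ0 _).le)
  refine double_limit' hX (fun k => (s - σ (ν k))⁻¹ • (z - x (ν k))) 2 (fun k => ?_) φ F1
    (c / 8) (c / 4) (by linarith) (fun j => ?_) (fun k => ?_)
  · rw [norm_smul, Real.norm_eq_abs, abs_of_pos (inv_pos.mpr (hT0 k)),
      inv_mul_le_iff₀ (hT0 k)]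
    linarith [A1 k]
  · have e1 : ∀ᶠ k in atTop, δ (k + 1) < c / 8 :=
      (hδt.comp (tendsto_add_atTop_nat 1)).eventually (gt_mem_nhds (by linarith))
    filter_upwards [e1, eventually_ge_atTop j] with k hk hjk
    rw [map_smul, smul_eq_mul, inv_mul_le_iff₀ (hT0 k)]
    have a1 := (le_abs_self _).trans (A2 j k hjk)
    have a2 := hT0 k
    nlinarith
  · have e0 : Tendsto (fun j => (1 + c) * (s - σ (ν j))) atTop (𝓝 ((1 + c) * (s - s))) :=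
      (st.const_sub s).const_mul _
    rw [sub_self, mul_zero] at e0
    have e1 : ∀ᶠ j in atTop, (1 + c) * (s - σ (ν j)) < c / 4 * (s - σ (ν k)) :=
      e0.eventually (gt_mem_nhds (by have := hT0 k; positivity))
    filter_upwards [e1, eventually_ge_atTop k] with j hj hkj
    rw [map_smul, smul_eq_mul, le_inv_mul_iff₀ (hT0 k)]
    have a1 := (abs_le.mp (A2 j j le_rfl)).1
    have a2 : δ (j + 1) ≤ 1 := by
      have := hδm 0 (j + 1) (Nat.zero_le _)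
      rw [hδ] at this ⊢
      simpa using this
    have a3 : δ (j + 1) * (s - σ (ν j)) ≤ 1 * (s - σ (ν j)) :=
      mul_le_mul_of_nonneg_right a2 (hT0 j).le
    have a4 := near' k j hkj
    have a5 : φ j (x (ν k)) ≤ ‖x (ν k)‖ := by
      have b1 := (φ j).le_opNorm (x (ν k))
      have b2 : φ j (x (ν k)) ≤ ‖φ j (x (ν k))‖ := le_abs_self _
      have b3 := F1 j
      nlinarith [norm_nonneg (x (ν k))]
    have a6 := F2 j
    have a7 : c * w k ≤ c * (s - σ (ν k)) := mul_le_mul_of_nonneg_left (hT k) hc0.le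
    rw [map_sub] at a1 ⊢
    simp only [hh] at a4
    nlinarith

end Crest.Agent.H5.FPP
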