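import Crest.Agent.H5.FPP.Abstract

set_option autoImplicit false

/-! Nonexpansive maps on bounded closed convex subsets of reflexive spaces have fixed points. -/

namespace Crest.Agent.H5.FPP

open Filter Topology

variable {X : Type*} [NormedAddCommGroup X] [NormedSpace ℝ X]

theorem exists_minimal (hX : Function.Surjective (NormedSpace.inclusionInDoubleDual ℝ X))
    (C : Set X) (hC₁ : C.Nonempty) (hC₂ : IsClosed C) (hC₃ : Bornology.IsBounded C)
    (hC₄ : Convex ℝ C) (F : X → X) (hF₁ : Set.MapsTo F C C) :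
    ∃ K ⊆ C, K.Nonempty ∧ IsClosed K ∧ Convex ℝ K ∧ Set.MapsTo F K K ∧
      ∀ K' ⊆ K, K'.Nonempty → IsClosed K' → Convex ℝ K' → Set.MapsTo F K' K' → K ⊆ K' := by
  obtain ⟨R, hR⟩ := hC₃.exists_norm_le
  set Z : Set (Set X) := {K | K ⊆ C ∧ K.Nonempty ∧ IsClosed K ∧ Convex ℝ K ∧ Set.MapsTo F K K}
    with hZ
  obtain ⟨K, -, hK⟩ := zorn_superset_nonempty Z (fun c hc hch hne => by
    refine ⟨⋂₀ c, ⟨?_, ?_, ?_, ?_, ?_⟩, fun s hs => Set.sInter_subset_of_mem hs⟩
    · obtain ⟨s, hs⟩ := hne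
      exact (Set.sInter_subset_of_mem hs).trans (hc hs).1
    · have : Nonempty c := hne.to_subtype
      have hdir : Directed (· ≥ ·) (fun s : c => 𝓟 (s : Set X)) := by
        intro s t
        rcases hch.total s.2 t.2 with h | h
        · exact ⟨s, le_rfl, principal_mono.mpr h⟩
        · exact ⟨t, principal_mono.mpr h, le_rfl⟩
      have hnb : (⨅ s : c, 𝓟 (s : Set X)).NeBot :=
        iInf_neBot_of_directed' hdir (fun s => principal_neBot_iff.mpr (hc s.2).2.1)
      set U : Ultrafilter X := Ultrafilter.of (⨅ s : c, 𝓟 (s : Set X))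
      have hU : ∀ s : c, ∀ᶠ x in (U : Filter X), x ∈ (s : Set X) := fun s =>
        le_principal_iff.mp ((Ultrafilter.of_le _).trans (iInf_le _ s))
      obtain ⟨s₀⟩ := this
      obtain ⟨z, hz⟩ := exists_wlim hX U (fun x => x) R (by
        filter_upwards [hU s₀] with x hx using hR x ((hc s₀.2).1 hx))
      exact ⟨z, fun s hs => hz.mem (hc hs).2.2.1 (hc hs).2.2.2.1 (hU ⟨s, hs⟩)⟩
    · exact isClosed_sInter fun s hs => (hc hs).2.2.1
    · exact convex_sInter fun s hs => (hc hs).2.2.2.1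
    · exact fun x hx s hs => (hc hs).2.2.2.2 (hx s hs)) C ⟨subset_rfl, hC₁, hC₂, hC₄, hF₁⟩
  obtain ⟨k1, k2, k3, k4, k5⟩ := hK.prop
  exact ⟨K, k1, k2, k3, k4, k5, fun K' h1 h2 h3 h4 h5 =>
    hK.le_of_le (show K' ∈ Z from ⟨h1.trans k1, h2, h3, h4, h5⟩) h1⟩

theorem diametral (K : Set X) (k3 : IsClosed K) (k4 : Convex ℝ K) (F : X → X)
    (k5 : Set.MapsTo F K K) (hF : ∀ a ∈ K, ∀ b ∈ K, ‖F a - F b‖ ≤ ‖a - b‖)
    (hmin : ∀ K' ⊆ K, K'.Nonempty → IsClosed K' → Convex ℝ K' → Set.MapsTo F K' K' → K ⊆ K')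
    (R : ℝ) (x : X) (hx : x ∈ K) (hR : ∀ y ∈ K, ‖x - y‖ ≤ R) :
    ∀ a ∈ K, ∀ b ∈ K, ‖a - b‖ ≤ R := by
  have hZ : K ⊆ K ∩ ⋂ y ∈ K, Metric.closedBall y R := by
    refine hmin _ Set.inter_subset_left ⟨x, hx, ?_⟩
      (k3.inter (isClosed_biInter fun y _ => Metric.isClosed_closedBall))
      (k4.inter (convex_iInter₂ fun y _ => convex_closedBall y R)) ?_
    · simp only [Set.mem_iInter, mem_closedBall_iff_norm]
      exact hR
    · rintro a ⟨ha, ha'⟩
      simp only [Set.mem_iInter, mem_closedBall_iff_norm] at ha'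
      refine ⟨k5 ha, ?_⟩
      simp only [Set.mem_iInter, mem_closedBall_iff_norm]
      have hm : ∀ y ∈ K, F y ∈ K ∩ Metric.closedBall (F a) R := fun y hy => by
        refine ⟨k5 hy, ?_⟩
        rw [mem_closedBall_iff_norm']
        exact (hF a ha y hy).trans (ha' y hy)
      have := hmin (K ∩ Metric.closedBall (F a) R) Set.inter_subset_left ⟨_, hm a ha⟩
        (k3.inter Metric.isClosed_closedBall) (k4.inter (convex_closedBall _ _))
        (fun y hy => hm y hy.1)
      intro y hy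
      exact mem_closedBall_iff_norm'.mp (this hy).2
  intro a ha b hb
  have := (hZ ha).2
  simp only [Set.mem_iInter, mem_closedBall_iff_norm] at this
  exact this b hb

theorem goebel_karlovitz (hX : Function.Surjective (NormedSpace.inclusionInDoubleDual ℝ X))
    (K : Set X) (k3 : IsClosed K) (k4 : Convex ℝ K) (F : X → X)
    (k5 : Set.MapsTo F K K) (hF : ∀ a ∈ K, ∀ b ∈ K, ‖F a - F b‖ ≤ ‖a - b‖)
    (hmin : ∀ K' ⊆ K, K'.Nonempty → IsClosed K' → Convex ℝ K' → Set.MapsTo F K' K' → K ⊆ K')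
    (D : ℝ) (hD : ∀ R, (∀ a ∈ K, ∀ b ∈ K, ‖a - b‖ ≤ R) → D ≤ R)
    (x : X) (hx : x ∈ K) (ε : ℝ) (hε : 0 < ε) :
    ∃ η > 0, ∀ v ∈ K, ‖F v - v‖ ≤ η → D - ε ≤ ‖v - x‖ := by
  by_contra hcon
  push Not at hcon
  choose v hv1 hv2 hv3 using fun k : ℕ => hcon (1 / ((k : ℝ) + 1)) (by positivity)
  have ht : Tendsto (fun k : ℕ => 1 / ((k : ℝ) + 1)) atTop (𝓝 0) :=
    tendsto_one_div_add_atTop_nhds_zero_nat
  have hK' : K ⊆ {y | y ∈ K ∧ ∀ γ > 0, ∀ᶠ k in atTop, ‖v k - y‖ ≤ D - ε + γ} := by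
    refine hmin _ (fun y hy => hy.1) ⟨x, hx, fun γ hγ => Eventually.of_forall fun k => ?_⟩
      ?_ ?_ ?_
    · linarith [hv3 k]
    · refine isClosed_of_closure_subset fun y hy => ⟨?_, fun γ hγ => ?_⟩
      · exact k3.closure_subset_iff.mpr (fun y hy => hy.1) hy
      · obtain ⟨y', hy', hd⟩ := Metric.mem_closure_iff.mp hy (γ / 2) (half_pos hγ)
        filter_upwards [hy'.2 (γ / 2) (half_pos hγ)] with k hk
        rw [dist_eq_norm] at hd
        have := norm_sub_le (v k - y') (y - y')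
        rw [sub_sub_sub_cancel_right] at this
        linarith
    · intro y hy y' hy' a b ha hb hab
      refine ⟨k4 hy.1 hy'.1 ha hb hab, fun γ hγ => ?_⟩
      filter_upwards [hy.2 γ hγ, hy'.2 γ hγ] with k h1 h2
      have := convex_closedBall (v k) (D - ε + γ) (mem_closedBall_iff_norm'.mpr h1)
        (mem_closedBall_iff_norm'.mpr h2) ha hb hab
      exact mem_closedBall_iff_norm'.mp this
    · intro y hy
      refine ⟨k5 hy.1, fun γ hγ => ?_⟩
      filter_upwards [hy.2 (γ / 2) (half_pos hγ), ht.eventually (ge_mem_nhds (half_pos hγ))]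
        with k h1 h2
      have a1 := hF (v k) (hv1 k) y hy.1
      have a2 := norm_sub_le (F (v k) - F y) (F (v k) - v k)
      rw [sub_sub_sub_cancel_left] at a2
      have a3 := hv2 k
      linarith
  set U : Ultrafilter ℕ := hyperfilter ℕ
  have hU : (U : Filter ℕ) ≤ atTop := Nat.hyperfilter_le_atTop
  obtain ⟨z, hz⟩ := exists_wlim hX U v (D - ε + ‖x‖) (Eventually.of_forall fun k => by
    have := norm_add_le (v k - x) x
    rw [sub_add_cancel] at this
    linarith [hv3 k])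
  have hzK : z ∈ K := hz.mem k3 k4 (Eventually.of_forall hv1)
  have := hD (D - ε) (diametral K k3 k4 F k5 hF hmin (D - ε) z hzK fun y hy =>
    (hz.sub_const y).norm_le' fun γ hγ => hU ((hK' hy).2 γ hγ))
  linarith

theorem exists_res [CompleteSpace X] (K : Set X) (k3 : IsClosed K) (k4 : Convex ℝ K) (F : X → X)
    (k5 : Set.MapsTo F K K) (hF : ∀ a ∈ K, ∀ b ∈ K, ‖F a - F b‖ ≤ ‖a - b‖)
    (t : ℝ) (ht0 : 0 < t) (ht1 : t ≤ 1) (c : X) (hc : c ∈ K) :
    ∃ z ∈ K, z = (1 - t) • F z + t • c := by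
  have hm : Set.MapsTo (fun z => (1 - t) • F z + t • c) K K := fun z hz =>
    k4 (k5 hz) hc (by linarith) ht0.le (by ring)
  have hcon : ContractingWith ⟨1 - t, by linarith⟩ (hm.restrict _ K K) := by
    refine ⟨?_, LipschitzWith.of_dist_le_mul fun a b => ?_⟩
    · rw [← NNReal.coe_lt_coe]
      show 1 - t < 1
      linarith
    · simp only [Subtype.dist_eq, Set.MapsTo.val_restrict_apply, dist_eq_norm]
      rw [add_sub_add_right_eq_sub, ← smul_sub, norm_smul, Real.norm_eq_abs,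
        abs_of_nonneg (by linarith)]
      exact mul_le_mul_of_nonneg_left (hF _ a.2 _ b.2) (by linarith)
  obtain ⟨y, hy, hfix, -⟩ := ContractingWith.exists_fixedPoint' k3.isComplete hm hcon hc
    (edist_ne_top _ _)
  exact ⟨y, hy, hfix.symm⟩

theorem fpp [CompleteSpace X]
    (hX : Function.Surjective (NormedSpace.inclusionInDoubleDual ℝ X))
    (C : Set X) (hC₁ : C.Nonempty) (hC₂ : IsClosed C) (hC₃ : Bornology.IsBounded C)
    (hC₄ : Convex ℝ C) (F : X → X) (hF₁ : Set.MapsTo F C C)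
    (hF₂ : ∀ a ∈ C, ∀ b ∈ C, ‖F a - F b‖ ≤ ‖a - b‖) :
    ∃ x ∈ C, F x = x := by
  obtain ⟨K, k1, ⟨u, hu⟩, k3, k4, k5, hmin⟩ := exists_minimal hX C hC₁ hC₂ hC₃ hC₄ F hF₁
  have hF : ∀ a ∈ K, ∀ b ∈ K, ‖F a - F b‖ ≤ ‖a - b‖ := fun a ha b hb =>
    hF₂ a (k1 ha) b (k1 hb)
  by_contra hcon
  obtain ⟨D, hD⟩ : ∃ D, D = Metric.diam K := ⟨_, rfl⟩
  have hD1 : ∀ a ∈ K, ∀ b ∈ K, ‖a - b‖ ≤ D := fun a ha b hb => by
    rw [hD, ← dist_eq_norm]
    exact Metric.dist_le_diam_of_mem (hC₃.subset k1) ha hb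
  have hD2 : ∀ R, (∀ a ∈ K, ∀ b ∈ K, ‖a - b‖ ≤ R) → D ≤ R := fun R hR => by
    rw [hD]
    exact Metric.diam_le_of_forall_dist_le_of_nonempty ⟨u, hu⟩ fun a ha b hb => by
      rw [dist_eq_norm]; exact hR a ha b hb
  have hD0 : 0 < D := by
    have h1 := hD1 (F u) (k5 hu) u hu
    have h2 : F u - u ≠ 0 := fun h => hcon ⟨u, k1 hu, sub_eq_zero.mp h⟩
    exact (norm_pos_iff.mpr h2).trans_le h1
  have GK := goebel_karlovitz hX K k3 k4 F k5 hF hmin D hD2
  obtain ⟨t, ht⟩ : ∃ t : ℕ → ℝ, t = fun n : ℕ => 1 / ((n : ℝ) + 1) := ⟨_, rfl⟩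
  have t0 : ∀ n, 0 < t n := fun n => by rw [ht]; positivity
  have t1 : ∀ n, t n ≤ 1 := fun n => by
    rw [ht]
    simp only
    rw [div_le_one (by positivity)]
    linarith [(Nat.cast_nonneg n : (0 : ℝ) ≤ n)]
  have tm : ∀ n m, n ≤ m → t m ≤ t n := fun n m h => by
    rw [ht]; exact Nat.one_div_le_one_div h
  have tt : Tendsto t atTop (𝓝 0) := by
    rw [ht]; exact tendsto_one_div_add_atTop_nhds_zero_nat
  have hres : ∀ (n : ℕ) (c : X), ∃ z, c ∈ K → z ∈ K ∧ z = (1 - t n) • F z + t n • c := by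
    intro n c
    by_cases hc : c ∈ K
    · obtain ⟨z, h1, h2⟩ := exists_res K k3 k4 F k5 hF (t n) (t0 n) (t1 n) c hc
      exact ⟨z, fun _ => ⟨h1, h2⟩⟩
    · exact ⟨c, fun h => absurd h hc⟩
  choose res hres using hres
  have res_mem : ∀ n, ∀ c ∈ K, res n c ∈ K := fun n c hc => (hres n c hc).1
  have res_lip : ∀ n, ∀ c ∈ K, ∀ c' ∈ K, ‖res n c - res n c'‖ ≤ ‖c - c'‖ := by
    intro n c hc c' hc'
    have e : res n c - res n c' =
        (1 - t n) • (F (res n c) - F (res n c')) + t n • (c - c') := by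
      conv_lhs => rw [(hres n c hc).2, (hres n c' hc').2]
      module
    have a1 := norm_add_le ((1 - t n) • (F (res n c) - F (res n c'))) (t n • (c - c'))
    rw [← e, norm_smul, norm_smul, Real.norm_eq_abs, Real.norm_eq_abs,
      abs_of_nonneg (by linarith [t1 n]), abs_of_pos (t0 n)] at a1
    have a2 := mul_le_mul_of_nonneg_left (hF _ (res_mem n c hc) _ (res_mem n c' hc'))
      (show 0 ≤ 1 - t n by linarith [t1 n])
    exact le_of_mul_le_mul_left (by linarith) (t0 n)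
  have res_afp : ∀ n, ∀ c ∈ K, ‖F (res n c) - res n c‖ ≤ t n * D := by
    intro n c hc
    have e : F (res n c) - res n c = t n • (F (res n c) - c) := by
      nth_rewrite 2 [(hres n c hc).2]
      module
    rw [e, norm_smul, Real.norm_eq_abs, abs_of_pos (t0 n)]
    exact mul_le_mul_of_nonneg_left (hD1 _ (k5 (res_mem n c hc)) _ hc) (t0 n).le
  have res_disp : ∀ n, ∀ c ∈ K, ∀ v ∈ K, ‖res n c - v‖ ≤ ‖c - v‖ + (t n)⁻¹ * ‖F v - v‖ := by
    intro n c hc v hv
    have e : res n c - v =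
        (1 - t n) • (F (res n c) - F v) + (1 - t n) • (F v - v) + t n • (c - v) := by
      conv_lhs => rw [(hres n c hc).2]
      module
    have a1 := norm_add₃_le (a := (1 - t n) • (F (res n c) - F v)) (b := (1 - t n) • (F v - v))
      (c := t n • (c - v))
    rw [← e, norm_smul, norm_smul, norm_smul, Real.norm_eq_abs, Real.norm_eq_abs,
      abs_of_nonneg (by linarith [t1 n]), abs_of_pos (t0 n)] at a1
    have a2 := mul_le_mul_of_nonneg_left (hF _ (res_mem n c hc) _ hv)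
      (show 0 ≤ 1 - t n by linarith [t1 n])
    have a3 : t n * ((t n)⁻¹ * ‖F v - v‖) = ‖F v - v‖ := by
      rw [← mul_assoc, mul_inv_cancel₀ (t0 n).ne', one_mul]
    have a4 := mul_nonneg (t0 n).le (norm_nonneg (F v - v))
    refine le_of_mul_le_mul_left ?_ (t0 n)
    rw [mul_add, a3]
    linarith
  obtain ⟨g, hg⟩ : ∃ g : ℝ × ℕ → X → X, g = fun l v =>
      res l.2 (Real.exp (-|l.1|) • v + (1 - Real.exp (-|l.1|)) • u) := ⟨_, rfl⟩
  have e1 : ∀ a : ℝ, Real.exp (-|a|) ≤ 1 := fun a =>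
    Real.exp_le_one_iff.mpr (by linarith [abs_nonneg a])
  have cmem : ∀ a : ℝ, ∀ v ∈ K, Real.exp (-|a|) • v + (1 - Real.exp (-|a|)) • u ∈ K :=
    fun a v hv => k4 hv hu (Real.exp_pos _).le (by linarith [e1 a]) (by ring)
  have g_mem : ∀ l, ∀ v ∈ K, g l v ∈ K := fun l v hv => by
    rw [hg]; exact res_mem _ _ (cmem _ v hv)
  have g_lip : ∀ l, ∀ v ∈ K, ∀ v' ∈ K, ‖g l v - g l v'‖ ≤ Real.exp (-|l.1|) * ‖v - v'‖ := by
    intro l v hv v' hv'
    rw [hg]
    refine (res_lip _ _ (cmem _ v hv) _ (cmem _ v' hv')).trans ?_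
    rw [add_sub_add_right_eq_sub, ← smul_sub, norm_smul, Real.norm_eq_abs,
      abs_of_pos (Real.exp_pos _)]
  have g_afp : ∀ l, ∀ v ∈ K, ‖F (g l v) - g l v‖ ≤ t l.2 * D := fun l v hv => by
    rw [hg]; exact res_afp _ _ (cmem _ v hv)
  have g_disp : ∀ l, ∀ v ∈ K,
      ‖g l v - v‖ ≤ (1 - Real.exp (-|l.1|)) * D + (t l.2)⁻¹ * ‖F v - v‖ := by
    intro l v hv
    rw [hg]
    refine (res_disp _ _ (cmem _ v hv) v hv).trans ?_
    have e : Real.exp (-|l.1|) • v + (1 - Real.exp (-|l.1|)) • u - v =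
        (1 - Real.exp (-|l.1|)) • (u - v) := by module
    rw [e, norm_smul, Real.norm_eq_abs, abs_of_nonneg (by linarith [e1 l.1])]
    have := mul_le_mul_of_nonneg_left (hD1 u hu v hv) (show 0 ≤ 1 - Real.exp (-|l.1|) by
      linarith [e1 l.1])
    linarith
  obtain ⟨time, htime⟩ : ∃ time : FreeMonoid (ℝ × ℕ) → ℝ,
      time = fun G => (G.toList.map fun l => |l.1|).sum := ⟨_, rfl⟩
  obtain ⟨act, hact⟩ : ∃ act : FreeMonoid (ℝ × ℕ) → X → X,
      act = fun G v => G.toList.foldr g v := ⟨_, rfl⟩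
  have time_one : time 1 = 0 := by simp [htime]
  have time_mul : ∀ a b, time (a * b) = time a + time b := fun a b => by simp [htime]
  have time_of : ∀ l, time (FreeMonoid.of l) = |l.1| := fun l => by simp [htime]
  have act_one : ∀ v, act 1 v = v := fun v => by simp [hact]
  have act_mul : ∀ a b v, act (a * b) v = act a (act b v) := fun a b v => by simp [hact]
  have act_of : ∀ l v, act (FreeMonoid.of l) v = g l v := fun l v => by simp [hact]
  have time_nn : ∀ a, 0 ≤ time a := fun a => by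
    induction a using FreeMonoid.inductionOn' with
    | one => rw [time_one]
    | of_mul l a ih => rw [time_mul, time_of]; positivity
  have act_mem : ∀ G, ∀ v ∈ K, act G v ∈ K := fun G v hv => by
    induction G using FreeMonoid.inductionOn' with
    | one => rwa [act_one]
    | of_mul l a ih => rw [act_mul, act_of]; exact g_mem _ _ ih
  have act_lip : ∀ G, ∀ v ∈ K, ∀ v' ∈ K,
      ‖act G v - act G v'‖ ≤ Real.exp (-time G) * ‖v - v'‖ := fun G v hv v' hv' => by
    induction G using FreeMonoid.inductionOn' with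
    | one => simp [act_one, time_one]
    | of_mul l a ih =>
      rw [act_mul, act_of, act_mul, act_of, time_mul, time_of, neg_add, Real.exp_add, mul_assoc]
      exact (g_lip _ _ (act_mem a v hv) _ (act_mem a v' hv')).trans
        (mul_le_mul_of_nonneg_left ih (Real.exp_pos _).le)
  have act_disp : ∀ G, ∃ c > 0, ∀ v ∈ K,
      ‖act G v - v‖ ≤ (1 - Real.exp (-time G)) * D + c * ‖F v - v‖ := fun G => by
    induction G using FreeMonoid.inductionOn' with
    | one => exact ⟨1, one_pos, fun v hv => by simp [act_one, time_one]⟩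
    | of_mul l a ih =>
      obtain ⟨c, hc, ih⟩ := ih
      refine ⟨c + (t l.2)⁻¹, by have := t0 l.2; positivity, fun v hv => ?_⟩
      rw [act_mul, act_of, time_mul, time_of, neg_add, Real.exp_add]
      have a1 := g_lip l _ (act_mem a v hv) _ hv
      have a2 := g_disp l v hv
      have a3 := norm_add_le (g l (act a v) - g l v) (g l v - v)
      rw [sub_add_sub_cancel] at a3
      have a4 := mul_le_mul_of_nonneg_left (ih v hv) (Real.exp_pos (-|l.1|)).le
      have a5 : Real.exp (-|l.1|) * (c * ‖F v - v‖) ≤ 1 * (c * ‖F v - v‖) :=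
        mul_le_mul_of_nonneg_right (e1 _) (by positivity)
      nlinarith
  set U : Ultrafilter ℕ := hyperfilter ℕ
  have hU : (U : Filter ℕ) ≤ atTop := Nat.hyperfilter_le_atTop
  have hwl : ∀ H, ∃ z, WLim (U : Filter ℕ) (fun k => act H (res k u)) z := fun H =>
    exists_wlim hX U _ (D + ‖u‖) (Eventually.of_forall fun k => by
      have a1 := hD1 _ (act_mem H _ (res_mem k u hu)) u hu
      have a2 := norm_add_le (act H (res k u) - u) u
      rw [sub_add_cancel] at a2
      linarith)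
  choose wl hwl using hwl
  have wl_mem : ∀ H, wl H ∈ K := fun H =>
    (hwl H).mem k3 k4 (Eventually.of_forall fun k => act_mem H _ (res_mem k u hu))
  have hnorm : ∀ a b : X, ‖D⁻¹ • a - D⁻¹ • b‖ = D⁻¹ * ‖a - b‖ := fun a b => by
    rw [← smul_sub, norm_smul, Real.norm_eq_abs, abs_of_pos (inv_pos.mpr hD0)]
  refine abstract hX time (fun N G => ∃ l G', G = FreeMonoid.of l * G' ∧ N ≤ l.2) time_one
    time_mul time_nn ?_ ?_ ?_ (fun H => D⁻¹ • wl H) ?_ ?_
  · rintro N _ G'' ⟨l, G', rfl, h⟩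
    exact ⟨l, G' * G'', mul_assoc _ _ _, h⟩
  · rintro N N' _ hN ⟨l, G', rfl, h⟩
    exact ⟨l, G', rfl, hN.trans h⟩
  · intro a ha N
    exact ⟨FreeMonoid.of (a, N), by rw [time_of, abs_of_pos ha], (a, N), 1, (mul_one _).symm,
      le_rfl⟩
  · intro H G
    rw [hnorm, inv_mul_le_iff₀ hD0]
    obtain ⟨c, hc, hG⟩ := act_disp G
    refine ((hwl (H * G)).sub (hwl H)).norm_le' fun γ hγ => hU ?_
    have tt' : Tendsto (fun k => c * (t k * D)) atTop (𝓝 (c * (0 * D))) :=
      (tt.mul_const D).const_mul c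
    rw [zero_mul, mul_zero] at tt'
    filter_upwards [tt'.eventually (ge_mem_nhds hγ)] with k hk
    rw [act_mul, time_mul, neg_add, Real.exp_add]
    have a1 := act_lip H _ (act_mem G _ (res_mem k u hu)) _ (res_mem k u hu)
    have a2 := hG _ (res_mem k u hu)
    have a3 := mul_le_mul_of_nonneg_left (res_afp k u hu) hc.le
    have a4 : Real.exp (-time H) ≤ 1 := Real.exp_le_one_iff.mpr (by linarith [time_nn H])
    have a5 := mul_le_mul_of_nonneg_left (a2.trans (add_le_add_right (a3.trans hk) _))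
      (Real.exp_pos (-time H)).le
    have a6 : Real.exp (-time H) * γ ≤ 1 * γ := mul_le_mul_of_nonneg_right a4 hγ.le
    nlinarith
  · intro H H' ε hε
    obtain ⟨η, hη, hGK⟩ := GK (wl H') (wl_mem H') (ε * D / 2) (by positivity)
    obtain ⟨c, hc, hH⟩ := act_disp H
    have tt' : Tendsto (fun k => c * (t k * D)) atTop (𝓝 (c * (0 * D))) :=
      (tt.mul_const D).const_mul c
    have tt'' : Tendsto (fun k => t k * D) atTop (𝓝 (0 * D)) := tt.mul_const D
    rw [zero_mul] at tt''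
    rw [zero_mul, mul_zero] at tt'
    obtain ⟨N, hN1, hN2⟩ := ((tt'.eventually (ge_mem_nhds (show 0 < ε * D / 2 by positivity))).and
      (tt''.eventually (ge_mem_nhds hη))).exists
    refine ⟨N, ?_⟩
    rintro _ ⟨l, G', rfl, hl⟩
    rw [hnorm, le_inv_mul_iff₀ hD0]
    obtain ⟨G, hG⟩ : ∃ G, G = FreeMonoid.of l * G' := ⟨_, rfl⟩
    have hp : act G u ∈ K := act_mem G u hu
    have a1 : ‖F (act G u) - act G u‖ ≤ t N * D := by
      rw [hG, act_mul, act_of]
      exact (g_afp l _ (act_mem G' u hu)).trans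
        (mul_le_mul_of_nonneg_right (tm _ _ hl) hD0.le)
    rw [← hG]
    have a2 := hGK _ hp (a1.trans hN2)
    have a3 := hH _ hp
    have a4 := mul_le_mul_of_nonneg_left a1 hc.le
    have a5 : ‖wl (H * G) - act H (act G u)‖ ≤ Real.exp (-time (H * G)) * D := by
      refine ((hwl (H * G)).sub_const _).norm_le (Eventually.of_forall fun k => ?_)
      rw [← act_mul]
      exact (act_lip _ _ (res_mem k u hu) _ hu).trans
        (mul_le_mul_of_nonneg_left (hD1 _ (res_mem k u hu) _ hu) (Real.exp_pos _).le)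
    have a6 : act G u - wl H' = (wl (H * G) - wl H') - (wl (H * G) - act H (act G u)) -
        (act H (act G u) - act G u) := by abel
    have a7 := norm_sub_le ((wl (H * G) - wl H') - (wl (H * G) - act H (act G u)))
      (act H (act G u) - act G u)
    have a8 := norm_sub_le (wl (H * G) - wl H') (wl (H * G) - act H (act G u))
    rw [← a6] at a7
    nlinarith

end Crest.Agent.H5.FPP
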