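import Mathlib

set_option autoImplicit false

/-! Weak limits along ultrafilters in reflexive spaces, and the double-limit lemma. -/

namespace Crest.Agent.H5.FPP

open Filter Topology

/-- Weak-star limit of an eventually bounded family of functionals along an ultrafilter. -/
theorem exists_wstar_lim {E : Type*} [NormedAddCommGroup E] [NormedSpace ℝ E] {ι : Type*}
    (U : Ultrafilter ι) (ξ : ι → StrongDual ℝ E) (R : ℝ) (hR : ∀ᶠ i in (U : Filter ι), ‖ξ i‖ ≤ R) :
    ∃ ζ : StrongDual ℝ E, ∀ x, Tendsto (fun i => ξ i x) U (𝓝 (ζ x)) := by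
  have hb : ∀ x, ∀ᶠ i in (U : Filter ι), ξ i x ∈ Set.Icc (-(R * ‖x‖)) (R * ‖x‖) := by
    intro x
    filter_upwards [hR] with i hi
    have h1 : |ξ i x| ≤ R * ‖x‖ := by
      have := (ξ i).le_opNorm x
      rw [Real.norm_eq_abs] at this
      exact this.trans (mul_le_mul_of_nonneg_right hi (norm_nonneg _))
    exact abs_le.mp h1
  have hex : ∀ x, ∃ a ∈ Set.Icc (-(R * ‖x‖)) (R * ‖x‖), Tendsto (fun i => ξ i x) U (𝓝 a) := by
    intro x
    have := (isCompact_Icc (a := -(R * ‖x‖)) (b := R * ‖x‖)).ultrafilter_le_nhds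
      (U.map (fun i => ξ i x)) (by
        rw [le_principal_iff]
        exact hb x)
    obtain ⟨a, ha, h⟩ := this
    exact ⟨a, ha, h⟩
  choose f hf1 hf2 using hex
  let L : E →ₗ[ℝ] ℝ :=
    { toFun := f
      map_add' := fun x y => by
        refine tendsto_nhds_unique (hf2 (x + y)) ?_
        simpa [map_add] using (hf2 x).add (hf2 y)
      map_smul' := fun c x => by
        refine tendsto_nhds_unique (hf2 (c • x)) ?_
        simpa [map_smul] using (hf2 x).const_mul c }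
  refine ⟨L.mkContinuous R (fun x => ?_), fun x => hf2 x⟩
  have := hf1 x
  rw [Real.norm_eq_abs]
  exact abs_le.mpr this

section
variable {X : Type*} [NormedAddCommGroup X] [NormedSpace ℝ X]

/-- `z` is the weak limit of `x` along the filter `U`. -/
def WLim {ι : Type*} (U : Filter ι) (x : ι → X) (z : X) : Prop :=
  ∀ φ : StrongDual ℝ X, Tendsto (fun i => φ (x i)) U (𝓝 (φ z))

theorem exists_wlim (hX : Function.Surjective (NormedSpace.inclusionInDoubleDual ℝ X))
    {ι : Type*} (U : Ultrafilter ι) (x : ι → X) (R : ℝ)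
    (hR : ∀ᶠ i in (U : Filter ι), ‖x i‖ ≤ R) : ∃ z, WLim (U : Filter ι) x z := by
  obtain ⟨ζ, hζ⟩ := exists_wstar_lim U (fun i => NormedSpace.inclusionInDoubleDual ℝ X (x i)) R
    (by
      filter_upwards [hR] with i hi
      exact (NormedSpace.double_dual_bound ℝ X (x i)).trans hi)
  obtain ⟨z, rfl⟩ := hX ζ
  exact ⟨z, fun φ => by simpa [NormedSpace.dual_def] using hζ φ⟩

theorem WLim.sub_const {ι : Type*} {U : Filter ι} {x : ι → X} {z : X} (h : WLim U x z) (y : X) :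
    WLim U (fun i => x i - y) (z - y) := fun φ => by
  simpa [map_sub] using (h φ).sub_const (φ y)

theorem WLim.sub {ι : Type*} {U : Filter ι} {x y : ι → X} {z w : X} (h : WLim U x z)
    (h' : WLim U y w) : WLim U (fun i => x i - y i) (z - w) := fun φ => by
  simpa [map_sub] using (h φ).sub (h' φ)

theorem WLim.norm_le {ι : Type*} {U : Filter ι} [U.NeBot] {x : ι → X} {z : X} (h : WLim U x z)
    {c : ℝ} (hc : ∀ᶠ i in U, ‖x i‖ ≤ c) : ‖z‖ ≤ c := by
  obtain ⟨g, hg1, hg2⟩ := exists_dual_vector'' ℝ z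
  have h1 : g z ≤ c := by
    refine le_of_tendsto (h g) ?_
    filter_upwards [hc] with i hi
    have := g.le_opNorm (x i)
    have h2 : g (x i) ≤ ‖g (x i)‖ := le_abs_self _
    nlinarith [norm_nonneg (x i)]
  simpa [hg2] using h1

theorem WLim.norm_le' {ι : Type*} {U : Filter ι} [U.NeBot] {x : ι → X} {z : X} (h : WLim U x z)
    {c : ℝ} (hc : ∀ γ > 0, ∀ᶠ i in U, ‖x i‖ ≤ c + γ) : ‖z‖ ≤ c :=
  le_of_forall_pos_le_add fun γ hγ => h.norm_le (hc γ hγ)

theorem WLim.mem {ι : Type*} {U : Filter ι} [U.NeBot] {x : ι → X} {z : X} (h : WLim U x z)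
    {K : Set X} (h1 : IsClosed K) (h2 : Convex ℝ K) (hK : ∀ᶠ i in U, x i ∈ K) : z ∈ K := by
  by_contra hz
  obtain ⟨f, u, hu, hb⟩ := geometric_hahn_banach_point_closed h2 h1 hz
  have : u ≤ f z := by
    refine ge_of_tendsto (h f) ?_
    filter_upwards [hK] with i hi using (hb _ hi).le
  linarith

/-- The double-limit lemma. -/
theorem double_limit (hX : Function.Surjective (NormedSpace.inclusionInDoubleDual ℝ X))
    (x : ℕ → X) (R : ℝ) (hx : ∀ j, ‖x j‖ ≤ R) (ξ : ℕ → StrongDual ℝ X) (hξ : ∀ k, ‖ξ k‖ ≤ 1)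
    (α β : ℝ) (hαβ : α < β) (h1 : ∀ k, ∀ᶠ j in atTop, β ≤ ξ k (x j))
    (h2 : ∀ j, ∀ᶠ k in atTop, ξ k (x j) ≤ α) : False := by
  set U : Ultrafilter ℕ := hyperfilter ℕ
  have hU : (U : Filter ℕ) ≤ atTop := Nat.hyperfilter_le_atTop
  obtain ⟨z, hz⟩ := exists_wlim hX U x R (Eventually.of_forall hx)
  obtain ⟨ζ, hζ⟩ := exists_wstar_lim U ξ 1 (Eventually.of_forall hξ)
  have a1 : ∀ k, β ≤ ξ k z := fun k => ge_of_tendsto (hz (ξ k)) (hU (h1 k))
  have a2 : β ≤ ζ z := ge_of_tendsto (hζ z) (Eventually.of_forall a1)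
  have b1 : ∀ j, ζ (x j) ≤ α := fun j => le_of_tendsto (hζ (x j)) (hU (h2 j))
  have b2 : ζ z ≤ α := le_of_tendsto (hz ζ) (Eventually.of_forall b1)
  linarith

theorem double_limit' (hX : Function.Surjective (NormedSpace.inclusionInDoubleDual ℝ X))
    (x : ℕ → X) (R : ℝ) (hx : ∀ j, ‖x j‖ ≤ R) (ξ : ℕ → StrongDual ℝ X) (hξ : ∀ k, ‖ξ k‖ ≤ 1)
    (α β : ℝ) (hαβ : α < β) (h1 : ∀ k, ∀ᶠ j in atTop, ξ k (x j) ≤ α)
    (h2 : ∀ j, ∀ᶠ k in atTop, β ≤ ξ k (x j)) : False := by
  refine double_limit hX x R hx (fun k => -ξ k) (fun k => by simpa using hξ k) (-β) (-α)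
    (by linarith) (fun k => ?_) (fun j => ?_)
  · filter_upwards [h1 k] with j hj
    simpa using hj
  · filter_upwards [h2 j] with k hk
    simpa using hk

end

end Crest.Agent.H5.FPP
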